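import Vale.Agent.P129R.Defs

/-! Duality lemmas. -/

namespace Vale.Agent.P129R

open Filter Topology MeasureTheory Vale.Agent.P129

variable {𝕜 X : Type*} [RCLike 𝕜] [NormedAddCommGroup X] [NormedSpace 𝕜 X]

theorem approx_rot (z : 𝕜) : ∃ c : 𝕜, ‖c‖ ≤ 1 ∧ RCLike.re (c * z) = ‖z‖ := by
  by_cases hz : z = 0
  · exact ⟨0, by simp, by simp [hz]⟩
  · have hn : ‖z‖ ≠ 0 := norm_ne_zero_iff.mpr hz
    refine ⟨(‖z‖ : 𝕜) / z, ?_, ?_⟩
    · rw [norm_div, RCLike.norm_ofReal, abs_norm, div_self hn]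
    · rw [div_mul_cancel₀ _ hz, RCLike.ofReal_re]

theorem mem_closure_image_ball {Y : Type*} [NormedAddCommGroup Y] [NormedSpace 𝕜 Y]
    (T : X →L[𝕜] Y) (b : Y) (r : ℝ) (hr : 0 ≤ r)
    (h : ∀ F : Y →L[𝕜] 𝕜, ‖F b‖ ≤ r * ‖F.comp T‖) :
    b ∈ closure (T '' Metric.closedBall 0 r) := by
  letI : NormedSpace ℝ Y := NormedSpace.restrictScalars ℝ 𝕜 Y
  haveI : IsScalarTower ℝ 𝕜 Y := IsScalarTower.restrictScalars ℝ 𝕜 Y
  by_contra hb
  have hconv : Convex ℝ (closure (T '' Metric.closedBall 0 r)) := by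
    apply Convex.closure
    rintro _ ⟨x, hx, rfl⟩ _ ⟨y, hy, rfl⟩ a c ha hc hac
    rw [mem_closedBall_zero_iff] at hx hy
    refine ⟨(a : 𝕜) • x + (c : 𝕜) • y, ?_, ?_⟩
    · rw [mem_closedBall_zero_iff]
      refine (norm_add_le _ _).trans ?_
      rw [norm_smul, norm_smul, RCLike.norm_ofReal, RCLike.norm_ofReal, abs_of_nonneg ha,
        abs_of_nonneg hc]
      have h1 := mul_le_mul_of_nonneg_left hx ha
      have h2 := mul_le_mul_of_nonneg_left hy hc
      calc a * ‖x‖ + c * ‖y‖ ≤ a * r + c * r := add_le_add h1 h2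
        _ = r := by rw [← add_mul, hac, one_mul]
    · rw [map_add, map_smul, map_smul, RCLike.real_smul_eq_coe_smul (K := 𝕜) a,
        RCLike.real_smul_eq_coe_smul (K := 𝕜) c]
  obtain ⟨F, u, hF, hu⟩ :=
    RCLike.geometric_hahn_banach_closed_point (𝕜 := 𝕜) hconv isClosed_closure hb
  have key : ∀ x ∈ Metric.closedBall (0 : X) r, ‖(F.comp T) x‖ ≤ u := by
    intro x hx
    rw [mem_closedBall_zero_iff] at hx
    obtain ⟨c, hc1, hc⟩ := approx_rot (F (T x))
    have hm : c • x ∈ Metric.closedBall (0 : X) r := by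
      rw [mem_closedBall_zero_iff, norm_smul]
      calc ‖c‖ * ‖x‖ ≤ 1 * r := mul_le_mul hc1 hx (norm_nonneg _) zero_le_one
        _ = r := one_mul r
    have := hF (T (c • x)) (subset_closure ⟨c • x, hm, rfl⟩)
    rw [map_smul, map_smul, smul_eq_mul, hc] at this
    exact this.le
  have hu0 : 0 ≤ u := (norm_nonneg _).trans (key 0 (Metric.mem_closedBall_self hr))
  have h1 : r * ‖F.comp T‖ ≤ u := by
    rcases hr.eq_or_lt with h0 | hr'
    · rw [← h0, zero_mul]; exact hu0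
    · rw [mul_comm, ← le_div_iff₀ hr']
      exact ContinuousLinearMap.opNorm_bound_of_ball_bound hr' u _ key
  have h2 := h F
  have h3 := RCLike.re_le_norm (F b)
  linarith

theorem helly (g : ℕ → X →L[𝕜] 𝕜) (s : Finset ℕ) (b : ℕ → 𝕜) (r : ℝ) (hr : 0 ≤ r)
    (h : ∀ a : ℕ → 𝕜, ‖∑ i ∈ s, a i * b i‖ ≤ r * ‖∑ i ∈ s, a i • g i‖) (η : ℝ) (hη : 0 < η) :
    ∃ z : X, ‖z‖ ≤ r ∧ ∀ i ∈ s, ‖g i z - b i‖ ≤ η := by
  classical
  let T : X →L[𝕜] (s → 𝕜) := ContinuousLinearMap.pi (fun i : s => g i)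
  have hmem : (fun i : s => b i) ∈ closure (T '' Metric.closedBall 0 r) := by
    apply mem_closure_image_ball T _ r hr
    intro F
    let a : ℕ → 𝕜 := fun i =>
      if hi : i ∈ s then F (fun j : s => if (⟨i, hi⟩ : s) = j then 1 else 0) else 0
    have ha : ∀ i : s, a i = F (fun j : s => if i = j then 1 else 0) := by
      intro i
      simp only [a, dif_pos i.2]
    have hF : ∀ v : ℕ → 𝕜, F (fun i : s => v i) = ∑ i ∈ s, a i * v i := by
      intro v
      have := LinearMap.pi_apply_eq_sum_univ (F : (s → 𝕜) →ₗ[𝕜] 𝕜) (fun i : s => v i)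
      rw [← Finset.sum_coe_sort s]
      refine Eq.trans this (Finset.sum_congr rfl fun i _ => ?_)
      rw [ha i, smul_eq_mul, mul_comm]
      rfl
    have e : F.comp T = ∑ i ∈ s, a i • g i := by
      ext x
      rw [ContinuousLinearMap.sum_apply]
      exact hF (fun i => g i x)
    rw [hF b, e]
    exact h a
  rw [Metric.mem_closure_iff] at hmem
  obtain ⟨_, ⟨z, hz, rfl⟩, hd⟩ := hmem η hη
  refine ⟨z, mem_closedBall_zero_iff.mp hz, fun i hi => ?_⟩
  have := (dist_le_pi_dist (fun i : s => b i) (T z) ⟨i, hi⟩).trans hd.le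
  rw [dist_comm, dist_eq_norm] at this
  exact this

end Vale.Agent.P129R
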