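import Vale.Agent.P129R.Defs

/-! One blocking step. -/

namespace Vale.Agent.P129R

open Filter Topology MeasureTheory Vale.Agent.P129

variable {𝕜 X : Type*} [RCLike 𝕜] [NormedAddCommGroup X] [NormedSpace 𝕜 X]

theorem blk_L1 (w : ℕ → X →L[𝕜] 𝕜) (c : ℝ) (hL : L1 c w) (B : ℕ → Finset ℕ) (co : ℕ → ℕ → 𝕜)
    (hd : ∀ k l, k ≠ l → Disjoint (B k) (B l)) (h1 : ∀ k, ∑ i ∈ B k, ‖co k i‖ = 1) :
    L1 c (fun k => ∑ i ∈ B k, co k i • w i) := by
  classical
  intro s a
  set b : ℕ → 𝕜 := fun i => ∑ k ∈ s, if i ∈ B k then a k * co k i else 0 with hb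
  have hbe : ∀ k ∈ s, ∀ i ∈ B k, b i = a k * co k i := by
    intro k hk i hi
    simp only [hb]
    rw [Finset.sum_eq_single_of_mem k hk, if_pos hi]
    intro l _ hlk
    rw [if_neg]
    intro hil
    exact Finset.disjoint_left.1 (hd l k hlk) hil hi
  have hp : (s : Set ℕ).PairwiseDisjoint B := fun k _ l _ hkl => hd k l hkl
  have h2 := hL (s.biUnion B) b
  rw [Finset.sum_biUnion hp, Finset.sum_biUnion hp] at h2
  convert h2 using 2
  · refine Finset.sum_congr rfl fun k hk => ?_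
    rw [Finset.sum_congr rfl (fun i hi => by rw [hbe k hk i hi, norm_mul]), ← Finset.mul_sum,
      h1, mul_one]
  · refine Finset.sum_congr rfl fun k hk => ?_
    rw [Finset.smul_sum]
    refine Finset.sum_congr rfl fun i hi => ?_
    rw [hbe k hk i hi, smul_smul]

theorem blk_bound {E : Type*} [NormedAddCommGroup E] [NormedSpace 𝕜 E] (B : Finset ℕ)
    (co : ℕ → 𝕜) (h1 : ∑ i ∈ B, ‖co i‖ = 1) (u : ℕ → E) (t : ℝ) (hu : ∀ i ∈ B, ‖u i‖ ≤ t) :
    ‖∑ i ∈ B, co i • u i‖ ≤ t := by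
  refine (norm_sum_le _ _).trans ?_
  calc ∑ i ∈ B, ‖co i • u i‖ ≤ ∑ i ∈ B, ‖co i‖ * t := by
        refine Finset.sum_le_sum fun i hi => ?_
        rw [norm_smul]
        exact mul_le_mul_of_nonneg_left (hu i hi) (norm_nonneg _)
    _ = t := by rw [← Finset.sum_mul, h1, one_mul]

theorem blk_step (w : ℕ → X →L[𝕜] 𝕜) (R c δ : ℝ) (hδ : 0 < δ) (hR : ∀ k, ‖w k‖ ≤ R) (hL : L1 c w)
    (n : ℕ) (hG : ¬ Good (fun k => w (k + n)) δ) :
    ∃ w' : ℕ → X →L[𝕜] 𝕜, (∀ k, ‖w' k‖ ≤ R) ∧ L1 c w' ∧ (∀ k < n, w' k = w k) ∧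
      (∀ x : X, ‖x‖ ≤ 1 → ∀ᶠ k in atTop, ‖w' k x‖ ≤ δ) ∧
      ∀ (x : X) (J : ℕ) (t : ℝ), (∀ k, J ≤ k → ‖w k x‖ ≤ t) → ∀ k, J ≤ k → ‖w' k x‖ ≤ t := by
  classical
  unfold Good at hG
  simp only [not_forall, not_exists, not_and, not_frequently, not_le] at hG
  obtain ⟨ι, _, g, k, hinj, hk, hx⟩ := hG
  set S : ℝ := ∑ t, ‖g t‖ with hS
  have hS0 : 0 < S := by
    obtain ⟨j, hj⟩ := (hx 0 (by simp)).exists
    have := (norm_nonneg _).trans_lt hj
    exact (mul_pos_iff_of_pos_left hδ).1 this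
  have hne : Nonempty ι := by
    by_contra h
    rw [not_nonempty_iff] at h
    simp [hS] at hS0
  obtain ⟨t0⟩ := hne
  let J : ℕ → ℕ := fun l => Nat.rec 0 (fun _ j => Finset.univ.sup (k j) + 1) l
  have hJs : ∀ l t, k (J l) t < J (l + 1) := fun l t =>
    Nat.lt_succ_of_le (Finset.le_sup (f := k (J l)) (Finset.mem_univ t))
  have hJm : StrictMono J := strictMono_nat_of_lt_succ fun l => (hk _ t0).trans_lt (hJs l t0)
  let e : ℕ → ι → ℕ := fun m t => k (J (m - n)) t + n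
  have he : ∀ m, Function.Injective (e m) := fun m t t' h => hinj _ (Nat.add_right_cancel h)
  let B : ℕ → Finset ℕ := fun m => if m < n then {m} else Finset.univ.image (e m)
  let co : ℕ → ℕ → 𝕜 := fun m i =>
    if m < n then 1 else ((S⁻¹ : ℝ) : 𝕜) * Function.extend (e m) g 0 i
  have hsum : ∀ {M : Type} [AddCommMonoid M] (m : ℕ), ¬ m < n → ∀ F : ℕ → M,
      ∑ i ∈ B m, F i = ∑ t, F (e m t) := by
    intro M _ m hm F
    simp only [B, if_neg hm]
    rw [Finset.sum_image (fun t _ t' _ h => he m h)]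
  have hco : ∀ m, ¬ m < n → ∀ t, co m (e m t) = ((S⁻¹ : ℝ) : 𝕜) * g t := by
    intro m hm t
    simp only [co, if_neg hm]
    rw [(he m).extend_apply]
  have hnS : ‖((S⁻¹ : ℝ) : 𝕜)‖ = S⁻¹ := by
    rw [RCLike.norm_ofReal, abs_of_pos (inv_pos.2 hS0)]
  have h1 : ∀ m, ∑ i ∈ B m, ‖co m i‖ = 1 := by
    intro m
    by_cases hm : m < n
    · simp [B, co, hm]
    · rw [hsum m hm]
      simp only [hco m hm, norm_mul, hnS]
      rw [← Finset.mul_sum, inv_mul_cancel₀ hS0.ne']
  have hmem : ∀ m, ∀ i ∈ B m, (m < n ∧ i = m) ∨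
      (n ≤ m ∧ J (m - n) + n ≤ i ∧ i < J (m - n + 1) + n) := by
    intro m i hi
    by_cases hm : m < n
    · left
      simpa [B, hm] using hi
    · right
      simp only [B, if_neg hm, Finset.mem_image, Finset.mem_univ, true_and] at hi
      obtain ⟨t, rfl⟩ := hi
      have a1 := hk (J (m - n)) t
      have a2 := hJs (m - n) t
      simp only [e]
      omega
  have hge : ∀ m, ∀ i ∈ B m, m ≤ i := by
    intro m i hi
    have := hJm.le_apply (x := m - n)
    rcases hmem m i hi with h | h <;> omega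
  have hd : ∀ m l, m ≠ l → Disjoint (B m) (B l) := by
    have key : ∀ m l, m < l → Disjoint (B m) (B l) := by
      intro m l hml
      rw [Finset.disjoint_left]
      intro i hi hi'
      rcases hmem m i hi with h | h
      · have := hge l i hi'
        omega
      · rcases hmem l i hi' with h' | h'
        · omega
        · have := hJm.monotone (by omega : m - n + 1 ≤ l - n)
          omega
    intro m l hml
    rcases lt_or_gt_of_ne hml with h | h
    · exact key m l h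
    · exact (key l m h).symm
  have happ : ∀ m x, (∑ i ∈ B m, co m i • w i) x = ∑ i ∈ B m, co m i • w i x := by
    intro m x
    simp [ContinuousLinearMap.sum_apply]
  refine ⟨fun m => ∑ i ∈ B m, co m i • w i, fun m => blk_bound _ _ (h1 m) _ _ fun i _ => hR i,
    blk_L1 w c hL B co hd h1, fun m hm => by simp [B, co, hm], ?_, ?_⟩
  · intro x hx1
    have ht : Tendsto (fun m => J (m - n)) atTop atTop :=
      hJm.tendsto_atTop.comp (tendsto_sub_atTop_nat n)
    filter_upwards [ht.eventually (hx x hx1), eventually_ge_atTop n] with m h2 h3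
    have hm : ¬ m < n := not_lt.2 h3
    rw [happ]
    have e1 : ∑ i ∈ B m, co m i • w i x =
        ((S⁻¹ : ℝ) : 𝕜) * ∑ t, g t * w (k (J (m - n)) t + n) x := by
      simp only [B, if_neg hm]
      rw [Finset.sum_image (fun t _ t' _ h => he m h), Finset.mul_sum]
      refine Finset.sum_congr rfl fun t _ => ?_
      rw [hco m hm, smul_eq_mul, mul_assoc]
    rw [e1, norm_mul, hnS, inv_mul_le_iff₀ hS0, mul_comm]
    exact h2.le
  · intro x J0 t h m hm
    rw [happ]
    exact blk_bound _ _ (h1 m) _ _ fun i hi => h i (hm.trans (hge m i hi))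

end Vale.Agent.P129R
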