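import Vale.Agent.P129R.Surj
import Vale.Agent.P129.SQ

/-! Quotients onto null sequences. -/

namespace Vale.Agent.P129R

open Filter Topology MeasureTheory Vale.Agent.P129

variable {𝕜 X : Type*} [RCLike 𝕜] [NormedAddCommGroup X] [NormedSpace 𝕜 X]

namespace C0A

/-- a null sequence as an element of the space of null sequences -/
def mk (f : ℕ → 𝕜) (hf : Tendsto f atTop (𝓝 0)) : ZeroAtInftyContinuousMap ℕ 𝕜 :=
  ⟨⟨f, continuous_of_discreteTopology⟩, by
    rw [cocompact_eq_atTop]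
    exact hf⟩

theorem mk_apply (f : ℕ → 𝕜) (hf : Tendsto f atTop (𝓝 0)) (k : ℕ) : mk f hf k = f k := rfl

theorem norm_le (b : ZeroAtInftyContinuousMap ℕ 𝕜) {t : ℝ} (ht : 0 ≤ t) (h : ∀ k, ‖b k‖ ≤ t) :
    ‖b‖ ≤ t := by
  rw [← ZeroAtInftyContinuousMap.norm_toBCF_eq_norm]
  exact (BoundedContinuousFunction.norm_le ht).2 h

theorem le_norm (b : ZeroAtInftyContinuousMap ℕ 𝕜) (k : ℕ) : ‖b k‖ ≤ ‖b‖ := by
  rw [← ZeroAtInftyContinuousMap.norm_toBCF_eq_norm]
  exact b.toBCF.norm_coe_le_norm k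

theorem tendsto (b : ZeroAtInftyContinuousMap ℕ 𝕜) : Tendsto b atTop (𝓝 0) := by
  rw [← cocompact_eq_atTop]
  exact zero_at_infty b

/-- unit vectors -/
def e (𝕜 : Type*) [RCLike 𝕜] (i : ℕ) : ZeroAtInftyContinuousMap ℕ 𝕜 :=
  mk (fun k => if k = i then 1 else 0) (tendsto_const_nhds.congr' (by
    filter_upwards [eventually_gt_atTop i] with k hk
    rw [if_neg hk.ne']))

theorem sum_apply (u : ℕ → 𝕜) (n k : ℕ) :
    (∑ i ∈ Finset.range n, u i • e 𝕜 i) k = if k < n then u k else 0 := by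
  induction n with
  | zero => simp
  | succ n ih =>
    rw [Finset.sum_range_succ, ZeroAtInftyContinuousMap.add_apply, ih,
      ZeroAtInftyContinuousMap.smul_apply, e, mk_apply, smul_eq_mul]
    rcases lt_trichotomy k n with h | h | h
    · rw [if_pos h, if_neg h.ne, if_pos (by omega), mul_zero, add_zero]
    · rw [if_neg (by omega), if_pos h, if_pos (by omega), mul_one, zero_add, h]
    · rw [if_neg (by omega), if_neg h.ne', if_neg (by omega), mul_zero, add_zero]

theorem tendsto_sum (b : ZeroAtInftyContinuousMap ℕ 𝕜) :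
    Tendsto (fun n => ∑ i ∈ Finset.range n, b i • e 𝕜 i) atTop (𝓝 b) := by
  refine Metric.tendsto_atTop.2 fun ε hε => ?_
  obtain ⟨N, hN⟩ := Metric.tendsto_atTop.1 (tendsto b) (ε / 2) (by positivity)
  refine ⟨N, fun n hn => ?_⟩
  rw [dist_eq_norm]
  refine lt_of_le_of_lt (norm_le _ (t := ε / 2) (by positivity) fun k => ?_) (by linarith)
  rw [ZeroAtInftyContinuousMap.sub_apply, sum_apply]
  split_ifs with h
  · rw [sub_self, norm_zero]
    positivity
  · rw [zero_sub, norm_neg, ← dist_zero_right]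
    exact (hN k (by omega)).le

theorem tendsto_F (F : ZeroAtInftyContinuousMap ℕ 𝕜 →L[𝕜] 𝕜) (b : ZeroAtInftyContinuousMap ℕ 𝕜) :
    Tendsto (fun n => ∑ i ∈ Finset.range n, F (e 𝕜 i) * b i) atTop (𝓝 (F b)) := by
  refine ((F.continuous.tendsto b).comp (tendsto_sum b)).congr fun n => ?_
  simp only [Function.comp_apply, map_sum, map_smul, smul_eq_mul, mul_comm]

theorem summable_F (F : ZeroAtInftyContinuousMap ℕ 𝕜 →L[𝕜] 𝕜) :
    Summable fun i => ‖F (e 𝕜 i)‖ := by
  choose u hu1 hu2 using fun i => RCLike.exists_norm_eq_mul_self (F (e 𝕜 i))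
  refine summable_of_sum_range_le (c := ‖F‖) (fun _ => norm_nonneg _) fun n => ?_
  have h1 : ‖∑ i ∈ Finset.range n, u i • e 𝕜 i‖ ≤ 1 := by
    refine norm_le _ zero_le_one fun k => ?_
    rw [sum_apply]
    split_ifs
    · exact (hu1 k).le
    · simp
  have h2 : F (∑ i ∈ Finset.range n, u i • e 𝕜 i) =
      ((∑ i ∈ Finset.range n, ‖F (e 𝕜 i)‖ : ℝ) : 𝕜) := by
    rw [map_sum, RCLike.ofReal_sum]
    exact Finset.sum_congr rfl fun i _ => by rw [map_smul, smul_eq_mul, hu2]
  have h3 := F.le_opNorm_of_le h1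
  rw [h2, RCLike.norm_ofReal, mul_one] at h3
  exact (le_abs_self _).trans h3

theorem norm_F (F : ZeroAtInftyContinuousMap ℕ 𝕜 →L[𝕜] 𝕜) : ‖F‖ ≤ ∑' i, ‖F (e 𝕜 i)‖ := by
  refine F.opNorm_le_bound (tsum_nonneg fun _ => norm_nonneg _) fun b => ?_
  refine le_of_tendsto' (tendsto_F F b).norm fun n => (norm_sum_le _ _).trans ?_
  refine le_trans ?_ (mul_le_mul_of_nonneg_right
    ((summable_F F).sum_le_tsum (Finset.range n) fun _ _ => norm_nonneg _) (norm_nonneg b))
  rw [Finset.sum_mul]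
  refine Finset.sum_le_sum fun i _ => ?_
  rw [norm_mul]
  exact mul_le_mul_of_nonneg_left (le_norm b i) (norm_nonneg _)

end C0A

theorem sq_of_c0 [CompleteSpace X] (v : ℕ → X →L[𝕜] 𝕜) (R c : ℝ) (hc : 0 < c)
    (hR : ∀ k, ‖v k‖ ≤ R) (hL : L1 c v) (h0 : ∀ x, Tendsto (fun k => v k x) atTop (𝓝 0)) :
    SQ 𝕜 X := by
  have hR0 : 0 ≤ R := (norm_nonneg _).trans (hR 0)
  obtain ⟨T, hT⟩ : ∃ T : X →L[𝕜] ZeroAtInftyContinuousMap ℕ 𝕜, ∀ x k, T x k = v k x := by
    refine ⟨LinearMap.mkContinuous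
      { toFun := fun x => C0A.mk (fun k => v k x) (h0 x)
        map_add' := fun x y => ZeroAtInftyContinuousMap.ext fun k => map_add (v k) x y
        map_smul' := fun a x => ZeroAtInftyContinuousMap.ext fun k => map_smul (v k) a x } R
      fun x => C0A.norm_le _ (by positivity) fun k => ?_, fun _ _ => rfl⟩
    exact ((v k).le_opNorm x).trans (mul_le_mul_of_nonneg_right (hR k) (norm_nonneg x))
  have hdual : ∀ F : ZeroAtInftyContinuousMap ℕ 𝕜 →L[𝕜] 𝕜, c * ‖F‖ ≤ ‖F.comp T‖ := by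
    intro F
    have hs := C0A.summable_F F
    have hs2 : Summable fun i => F (C0A.e 𝕜 i) • v i := by
      refine Summable.of_norm_bounded (hs.mul_right R) fun i => ?_
      rw [norm_smul]
      exact mul_le_mul_of_nonneg_left (hR i) (norm_nonneg _)
    have t1 := hs2.hasSum.tendsto_sum_nat
    have heq : F.comp T = ∑' i, F (C0A.e 𝕜 i) • v i := by
      ext x
      have t2 := ((ContinuousLinearMap.apply 𝕜 𝕜 x).continuous.tendsto _).comp t1
      refine tendsto_nhds_unique (C0A.tendsto_F F (T x)) (t2.congr fun n => ?_)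
      simp only [Function.comp_apply, map_sum, map_smul, ContinuousLinearMap.apply_apply,
        smul_eq_mul, hT]
    refine (mul_le_mul_of_nonneg_left (C0A.norm_F F) hc.le).trans ?_
    rw [heq]
    exact le_of_tendsto_of_tendsto' (hs.hasSum.tendsto_sum_nat.const_mul c) t1.norm
      fun n => hL _ _
  have hn : ‖((c⁻¹ : ℝ) : 𝕜)‖ = c⁻¹ := by rw [RCLike.norm_ofReal, abs_of_pos (inv_pos.2 hc)]
  refine sq_of_seq (fun k => ((c⁻¹ : ℝ) : 𝕜) • v k) (fun k => ?_)
    {z | ∀ᶠ k in atTop, v k z = 0} ?_ fun x hx => ?_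
  · have h1 := hL {k} fun _ => 1
    simp only [Finset.sum_singleton, norm_one, mul_one, one_smul] at h1
    rw [norm_smul, hn]
    have h2 : 1 ≤ c⁻¹ * ‖v k‖ := by rwa [le_inv_mul_iff₀ hc, mul_one]
    linarith
  · refine Metric.dense_iff.2 fun x r hr => ?_
    obtain ⟨N, hN⟩ := Metric.tendsto_atTop.1 (h0 x) (c * r / 4) (by positivity)
    have hb : Tendsto (fun k => if N ≤ k then v k x else 0) atTop (𝓝 0) :=
      (h0 x).congr' (by
        filter_upwards [eventually_ge_atTop N] with k hk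
        rw [if_pos hk])
    obtain ⟨y, hy1, hy2⟩ := surj_of_dual T c hc hdual (C0A.mk _ hb)
    have h1 : ‖C0A.mk _ hb‖ ≤ c * r / 4 := by
      refine C0A.norm_le _ (by positivity) fun k => ?_
      rw [C0A.mk_apply]
      split_ifs with h
      · rw [← dist_zero_right]
        exact (hN k h).le
      · rw [norm_zero]
        positivity
    have h2 := hy2.trans (mul_le_mul_of_nonneg_left h1 (by positivity))
    have e : 2 / c * (c * r / 4) = r / 2 := by field_simp; ring
    refine ⟨x - y, ?_, ?_⟩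
    · rw [Metric.mem_ball, dist_eq_norm, sub_sub_cancel_left, norm_neg]
      linarith
    · filter_upwards [eventually_ge_atTop N] with k hk
      rw [map_sub, ← hT y k, hy1, C0A.mk_apply, if_pos hk, sub_self]
  · filter_upwards [hx] with k hk
    rw [ContinuousLinearMap.smul_apply, hk, smul_zero, norm_zero]
    positivity

end Vale.Agent.P129R
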