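import Vale.Agent.P129.JDefs

/-! Definitions for the measurable case. -/

namespace Vale.Agent.P129R

open Filter Topology

variable {𝕜 X : Type*} [RCLike 𝕜] [NormedAddCommGroup X] [NormedSpace 𝕜 X]

/-- a separable infinite-dimensional quotient exists -/
def SQ (𝕜 X : Type*) [RCLike 𝕜] [NormedAddCommGroup X] [NormedSpace 𝕜 X] : Prop :=
  ∃ M : Submodule 𝕜 X, IsClosed (M : Set X) ∧ TopologicalSpace.SeparableSpace (X ⧸ M) ∧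
    ¬ FiniteDimensional 𝕜 (X ⧸ M)

/-- lower summing estimate -/
def L1 (c : ℝ) (v : ℕ → X →L[𝕜] 𝕜) : Prop :=
  ∀ (s : Finset ℕ) (a : ℕ → 𝕜), c * ∑ i ∈ s, ‖a i‖ ≤ ‖∑ i ∈ s, a i • v i‖

/-- finite truncations are approximately realised in the unit ball -/
def Trunc (g : ℕ → X →L[𝕜] 𝕜) : Prop :=
  ∀ x : X, ‖x‖ ≤ 1 → ∀ (s : Finset ℕ) (η : ℝ), 0 < η →
    ∃ y : X, ‖y‖ ≤ 1 ∧ (∀ i ∈ s, ‖g i y - g i x‖ ≤ η) ∧ ∀ j, j ∉ s → g j y = 0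

/-- vectors act with small norm on the tails -/
def Shr (g : ℕ → X →L[𝕜] 𝕜) : Prop :=
  ∀ (x : X) (ε : ℝ), 0 < ε → ∃ N : ℕ, ∀ (s : Finset ℕ) (a : ℕ → 𝕜), (∀ i ∈ s, N ≤ i) →
    ‖∑ i ∈ s, a i * g i x‖ ≤ ε * ‖∑ i ∈ s, a i • g i‖

/-- every block sequence is seen by one vector -/
def Good (v : ℕ → X →L[𝕜] 𝕜) (δ : ℝ) : Prop :=
  ∀ (ι : Type) [Fintype ι] (g : ι → 𝕜) (k : ℕ → ι → ℕ), (∀ j, Function.Injective (k j)) →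
    (∀ j t, j ≤ k j t) →
    ∃ x : X, ‖x‖ ≤ 1 ∧ ∃ᶠ j in atTop, δ * ∑ t, ‖g t‖ ≤ ‖∑ t, g t * v (k j t) x‖

end Vale.Agent.P129R
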