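import Vale.Agent.P129R.Defs

/-! A universal enumeration of coefficient vectors. -/

namespace Vale.Agent.P129R

open Filter Topology MeasureTheory Vale.Agent.P129

variable {𝕜 X : Type*} [RCLike 𝕜] [NormedAddCommGroup X] [NormedSpace 𝕜 X]

theorem exists_enum : ∃ a : ℕ → ℕ → 𝕜, ∀ (ξ : ℕ → X →L[𝕜] 𝕜) (c : ℝ),
    (∀ n : ℕ, c * ∑ i ∈ Finset.range n, ‖a n i‖ ^ 2 ≤ ‖∑ i ∈ Finset.range n, a n i • ξ i‖ ^ 2) →
    ∀ (n : ℕ) (b : ℕ → 𝕜),
      c * ∑ i ∈ Finset.range n, ‖b i‖ ^ 2 ≤ ‖∑ i ∈ Finset.range n, b i • ξ i‖ ^ 2 := by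
  let d : ℕ → 𝕜 := TopologicalSpace.denseSeq 𝕜
  have hd : DenseRange d := TopologicalSpace.denseRange_denseSeq 𝕜
  let a : ℕ → ℕ → 𝕜 := fun N i =>
    (((Denumerable.ofNat (List ℕ) (Nat.unpair N).1).map d)[i]?).getD 0
  refine ⟨a, fun ξ c h n b => ?_⟩
  have hD : DenseRange (Pi.map fun _ : ℕ => d) := DenseRange.piMap fun _ => hd
  refine hD.induction_on (p := fun b : ℕ → 𝕜 => c * ∑ i ∈ Finset.range n, ‖b i‖ ^ 2 ≤
    ‖∑ i ∈ Finset.range n, b i • ξ i‖ ^ 2) b (isClosed_le (by fun_prop) (by fun_prop)) fun β => ?_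
  have h1 := h (Nat.pair (Encodable.encode ((List.range n).map β)) n)
  have hs : Finset.range n ⊆
      Finset.range (Nat.pair (Encodable.encode ((List.range n).map β)) n) :=
    Finset.range_subset_range.2 (Nat.right_le_pair _ _)
  have e1 : ∀ i, a (Nat.pair (Encodable.encode ((List.range n).map β)) n) i =
      if i < n then d (β i) else 0 := fun i => by
    simp only [a, Nat.unpair_pair, Denumerable.ofNat_encode]
    split_ifs with hi
    · simp [hi]
    · simp [hi]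
  simp only [e1] at h1
  rw [← Finset.sum_subset hs (fun i _ hi => by simp [Finset.mem_range.not.1 hi]),
    ← Finset.sum_subset hs (fun i _ hi => by
      rw [if_neg (Finset.mem_range.not.1 hi)]; exact zero_smul 𝕜 (ξ i))] at h1
  rw [Finset.sum_congr rfl fun i hi => by rw [if_pos (Finset.mem_range.1 hi)],
    Finset.sum_congr rfl (g := fun i => d (β i) • ξ i)
      fun i hi => by rw [if_pos (Finset.mem_range.1 hi)]] at h1
  exact h1

end Vale.Agent.P129R
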