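import Vale.Agent.P129R.Blk

/-! The Hagler-Johnson dichotomy. -/

namespace Vale.Agent.P129R

open Filter Topology MeasureTheory Vale.Agent.P129

variable {𝕜 X : Type*} [RCLike 𝕜] [NormedAddCommGroup X] [NormedSpace 𝕜 X]

theorem dich (u : ℕ → X →L[𝕜] 𝕜) (R c : ℝ) (hR : ∀ k, ‖u k‖ ≤ R) (hL : L1 c u) :
    (∃ v : ℕ → X →L[𝕜] 𝕜, (∀ k, ‖v k‖ ≤ R) ∧ L1 c v ∧
      ∀ x, Tendsto (fun k => v k x) atTop (𝓝 0)) ∨
    ∃ (v : ℕ → X →L[𝕜] 𝕜) (δ : ℝ), 0 < δ ∧ (∀ k, ‖v k‖ ≤ R) ∧ Good v δ := by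
  refine or_iff_not_imp_right.2 fun h2 => ?_
  have hstep : ∀ (n : ℕ) (w : {w : ℕ → X →L[𝕜] 𝕜 // (∀ k, ‖w k‖ ≤ R) ∧ L1 c w}),
      ∃ w' : {w : ℕ → X →L[𝕜] 𝕜 // (∀ k, ‖w k‖ ≤ R) ∧ L1 c w}, (∀ k < n, w'.1 k = w.1 k) ∧
        (∀ x : X, ‖x‖ ≤ 1 → ∀ᶠ k in atTop, ‖w'.1 k x‖ ≤ 1 / ((n : ℝ) + 1)) ∧
        ∀ (x : X) (J : ℕ) (t : ℝ), (∀ k, J ≤ k → ‖w.1 k x‖ ≤ t) →
          ∀ k, J ≤ k → ‖w'.1 k x‖ ≤ t := by
    intro n w
    obtain ⟨w', a1, a2, a3, a4, a5⟩ := blk_step w.1 R c (1 / ((n : ℝ) + 1)) (by positivity)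
      w.2.1 w.2.2 n (fun hG => h2 ⟨_, _, by positivity, fun k => w.2.1 (k + n), hG⟩)
    exact ⟨⟨w', a1, a2⟩, a3, a4, a5⟩
  choose st hs1 hs2 hs3 using hstep
  let W : ℕ → {w : ℕ → X →L[𝕜] 𝕜 // (∀ k, ‖w k‖ ≤ R) ∧ L1 c w} :=
    fun n => Nat.rec ⟨u, hR, hL⟩ (fun m w => st m w) n
  have hW : ∀ n, W (n + 1) = st n (W n) := fun n => rfl
  have hfro : ∀ k m, k + 1 ≤ m → (W m).1 k = (W (k + 1)).1 k := by
    intro k m hm
    induction m, hm using Nat.le_induction with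
    | base => rfl
    | succ m hm ih => rw [hW m, hs1 m (W m) k hm, ih]
  have hunit : ∀ x : X, ‖x‖ ≤ 1 → Tendsto (fun k => (W (k + 1)).1 k x) atTop (𝓝 0) := by
    intro x hx
    rw [Metric.tendsto_atTop]
    intro ε hε
    obtain ⟨n, hn⟩ := exists_nat_one_div_lt hε
    obtain ⟨J, hJ⟩ := eventually_atTop.1 (hs2 n (W n) x hx)
    have hall : ∀ m, n + 1 ≤ m → ∀ k, J ≤ k → ‖(W m).1 k x‖ ≤ 1 / ((n : ℝ) + 1) := by
      intro m hm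
      induction m, hm using Nat.le_induction with
      | base => exact hJ
      | succ m hm ih => exact hs3 m (W m) x J _ ih
    refine ⟨max J n, fun k hk => ?_⟩
    rw [dist_zero_right]
    exact (hall (k + 1) (Nat.succ_le_succ (le_of_max_le_right hk)) k
      (le_of_max_le_left hk)).trans_lt hn
  refine ⟨fun k => (W (k + 1)).1 k, fun k => (W (k + 1)).2.1 k, ?_, ?_⟩
  · intro s a
    have h := (W (s.sup id + 1)).2.2 s a
    have e : ∑ i ∈ s, a i • (W (s.sup id + 1)).1 i = ∑ i ∈ s, a i • (W (i + 1)).1 i :=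
      Finset.sum_congr rfl fun i hi => by
        rw [hfro i _ (Nat.succ_le_succ (Finset.le_sup (f := id) hi))]
    rwa [e] at h
  · intro x
    by_cases hx : x = 0
    · subst hx
      simp
    · have hn : ((‖x‖ : ℝ) : 𝕜) ≠ 0 := by simpa using hx
      have h1 : ‖((‖x‖ : ℝ) : 𝕜)⁻¹ • x‖ ≤ 1 := by
        rw [norm_smul, norm_inv, RCLike.norm_ofReal, abs_norm]
        exact inv_mul_le_one_of_le₀ le_rfl (norm_nonneg _)
      have h3 := (hunit _ h1).const_mul ((‖x‖ : ℝ) : 𝕜)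
      simp only [map_smul, smul_eq_mul, mul_zero, mul_inv_cancel_left₀ hn] at h3
      exact h3

end Vale.Agent.P129R
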