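import Mathlib

/-! Diffuse total measures on the line. -/

namespace Vale.Agent.P129R

open Filter Topology MeasureTheory

theorem small_nhds (μ : @Measure ℝ ⊤) (hμ : @IsProbabilityMeasure ℝ ⊤ μ) (A : ℕ → Set ℝ)
    (hA : Antitone A) (h0 : μ (⋂ n, A n) = 0) (ε : ENNReal) (hε : 0 < ε) : ∃ n, μ (A n) ≤ ε := by
  let _ : MeasurableSpace ℝ := ⊤
  have h := tendsto_measure_iInter_atTop (μ := μ) (s := A)
    (fun n => (MeasurableSpace.measurableSet_top (s := A n)).nullMeasurableSet) hA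
    ⟨0, measure_ne_top _ _⟩
  rw [h0] at h
  exact (h.eventually (ge_mem_nhds hε)).exists

theorem small_cover (μ : @Measure ℝ ⊤) (hμ : @IsProbabilityMeasure ℝ ⊤ μ) (h0 : ∀ x, μ {x} = 0)
    (ε : ENNReal) (hε : 0 < ε) :
    ∃ (ι : Type) (_ : Fintype ι) (s : ℝ → ι), ∀ i, μ {ω | s ω = i} ≤ ε := by
  classical
  have h1 : ∀ x : ℝ, ∃ n : ℕ, μ (Metric.ball x (1 / ((n : ℝ) + 1))) ≤ ε := by
    intro x
    refine small_nhds μ hμ (fun n => Metric.ball x (1 / ((n : ℝ) + 1)))
      (fun a b hab => Metric.ball_subset_ball (Nat.one_div_le_one_div hab)) ?_ ε hε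
    refine le_antisymm (le_trans (μ.mono fun y hy => ?_) (h0 x).le) bot_le
    rw [Set.mem_singleton_iff]
    by_contra hne
    obtain ⟨n, hn⟩ := exists_nat_one_div_lt (dist_pos.2 hne)
    exact absurd (Set.mem_iInter.1 hy n) (by simpa using hn.le)
  choose r hr using h1
  obtain ⟨N, hN⟩ : ∃ N : ℕ, μ (Metric.closedBall (0 : ℝ) N)ᶜ ≤ ε := by
    refine small_nhds μ hμ (fun n => (Metric.closedBall (0 : ℝ) n)ᶜ)
      (fun a b hab => Set.compl_subset_compl.2
        (Metric.closedBall_subset_closedBall (by exact_mod_cast hab))) ?_ ε hε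
    have : ⋂ n : ℕ, (Metric.closedBall (0 : ℝ) n)ᶜ = ∅ := by
      rw [← Set.compl_iUnion, Metric.iUnion_closedBall_nat, Set.compl_univ]
    rw [this]
    exact μ.empty
  obtain ⟨T, hT⟩ := (isCompact_closedBall (0 : ℝ) N).elim_finite_subcover
    (fun x => Metric.ball x (1 / ((r x : ℝ) + 1))) (fun _ => Metric.isOpen_ball)
    (fun y _ => Set.mem_iUnion.2 ⟨y, Metric.mem_ball_self (by positivity)⟩)
  let B : Option T → Set ℝ := fun o => o.elim (Metric.closedBall (0 : ℝ) N)ᶜ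
    fun x => Metric.ball x.1 (1 / ((r x.1 : ℝ) + 1))
  have hB : ∀ ω, ∃ o, ω ∈ B o := by
    intro ω
    by_cases h : ω ∈ Metric.closedBall (0 : ℝ) N
    · obtain ⟨x, hx, hω⟩ := Set.mem_iUnion₂.1 (hT h)
      exact ⟨some ⟨x, hx⟩, hω⟩
    · exact ⟨none, h⟩
  choose s hs using hB
  refine ⟨Option T, inferInstance, s, fun o => le_trans (μ.mono fun ω hω => ?_)
    (show μ (B o) ≤ ε from ?_)⟩
  · have := hs ω
    rwa [show s ω = o from hω] at this
  · cases o with
    | none => exact hN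
    | some x => exact hr x.1

end Vale.Agent.P129R
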