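import Vale.Agent.P129R.Defs

/-! The non-shrinking case. -/

namespace Vale.Agent.P129R

open Filter Topology MeasureTheory Vale.Agent.P129

variable {𝕜 X : Type*} [RCLike 𝕜] [NormedAddCommGroup X] [NormedSpace 𝕜 X]

theorem ell_half (φ : 𝕜 →+ ℝ) (hφ : ∀ z, |φ z| ≤ ‖z‖) (s : Finset ℕ) (a : ℕ → 𝕜) :
    ∑ i ∈ s, |φ (a i)| ≤ ‖∑ i ∈ s.filter (fun i => 0 ≤ φ (a i)), a i‖ +
      ‖∑ i ∈ s.filter (fun i => ¬ 0 ≤ φ (a i)), a i‖ := by
  rw [← Finset.sum_filter_add_sum_filter_not s (fun i => 0 ≤ φ (a i))]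
  refine add_le_add ?_ ?_
  · refine le_trans (le_of_eq ?_) ((le_abs_self _).trans (hφ _))
    rw [map_sum]
    exact Finset.sum_congr rfl fun i hi => abs_of_nonneg (Finset.mem_filter.1 hi).2
  · refine le_trans (le_of_eq ?_) ((neg_le_abs _).trans (hφ _))
    rw [map_sum, ← Finset.sum_neg_distrib]
    exact Finset.sum_congr rfl fun i hi => abs_of_neg (not_le.1 (Finset.mem_filter.1 hi).2)

theorem ell_quarter (s : Finset ℕ) (a : ℕ → 𝕜) :
    ∃ J ⊆ s, ∑ i ∈ s, ‖a i‖ ≤ 4 * ‖∑ i ∈ J, a i‖ := by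
  by_contra hcon
  push Not at hcon
  have h1 := ell_half (RCLike.re : 𝕜 →+ ℝ) RCLike.abs_re_le_norm s a
  have h2 := ell_half (RCLike.im : 𝕜 →+ ℝ) RCLike.abs_im_le_norm s a
  have h3 : ∑ i ∈ s, ‖a i‖ ≤ ∑ i ∈ s, |RCLike.re (a i)| + ∑ i ∈ s, |RCLike.im (a i)| := by
    rw [← Finset.sum_add_distrib]
    refine Finset.sum_le_sum fun i _ => ?_
    conv_lhs => rw [← RCLike.re_add_im (a i)]
    refine (norm_add_le _ _).trans (add_le_add (by simp) ?_)
    rw [norm_mul, RCLike.norm_ofReal]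
    refine mul_le_of_le_one_right (abs_nonneg _) ?_
    by_cases hI : (RCLike.I : 𝕜) = 0
    · simp [hI]
    · exact (RCLike.norm_I_of_ne_zero hI).le
  have h4 := hcon _ (Finset.filter_subset (fun i => 0 ≤ RCLike.re (a i)) s)
  have h5 := hcon _ (Finset.filter_subset (fun i => ¬ 0 ≤ RCLike.re (a i)) s)
  have h6 := hcon _ (Finset.filter_subset (fun i => 0 ≤ RCLike.im (a i)) s)
  have h7 := hcon _ (Finset.filter_subset (fun i => ¬ 0 ≤ RCLike.im (a i)) s)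
  linarith

theorem l1_of_not_shr (g : ℕ → X →L[𝕜] 𝕜) (ht : Trunc g) (hs : ¬ Shr g) :
    ∃ (u : ℕ → X →L[𝕜] 𝕜) (R c : ℝ), 0 < c ∧ (∀ k, ‖u k‖ ≤ R) ∧ L1 c u := by
  classical
  unfold Shr at hs
  push Not at hs
  obtain ⟨x, ε, hε, hs⟩ := hs
  choose S A hSA hlt using hs
  let n : ℕ → ℕ := fun k => Nat.rec 0 (fun _ m => m + (S m).sup id + 1) k
  have hn : ∀ k, n (k + 1) = n k + (S (n k)).sup id + 1 := fun k => rfl
  have hmono : Monotone n := monotone_nat_of_le_succ fun k => by rw [hn]; omega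
  have hdisj : ∀ k l i, i ∈ S (n k) → i ∈ S (n l) → k = l := by
    have key : ∀ k l i, k < l → i ∈ S (n k) → i ∈ S (n l) → False := by
      intro k l i hkl h1 h2
      have h3 : i ≤ (S (n k)).sup id := Finset.le_sup (f := id) h1
      have h4 := hmono (Nat.succ_le_of_lt hkl)
      have h5 := hSA _ i h2
      rw [hn] at h4
      omega
    intro k l i h1 h2
    rcases lt_trichotomy k l with h | h | h
    · exact (key k l i h h1 h2).elim
    · exact h
    · exact (key l k i h h2 h1).elim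
  set ρ : ℝ := ‖x‖ + 1 with hρ
  have hρ0 : 0 < ρ := by positivity
  set x' : X := ((ρ⁻¹ : ℝ) : 𝕜) • x with hx'
  have hx1 : ‖x'‖ ≤ 1 := by
    rw [hx', norm_smul, RCLike.norm_ofReal, abs_of_pos (inv_pos.2 hρ0), inv_mul_le_iff₀ hρ0]
    linarith
  let v : ℕ → X →L[𝕜] 𝕜 := fun k => ∑ i ∈ S (n k), A (n k) i • g i
  have hv : ∀ k y, v k y = ∑ i ∈ S (n k), A (n k) i * g i y := by
    intro k y
    simp [v]
  have hβ : ∀ k, ε * ‖v k‖ < ρ * ‖v k x'‖ := by
    intro k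
    rw [hx', map_smul, norm_smul, RCLike.norm_ofReal, abs_of_pos (inv_pos.2 hρ0), ← mul_assoc,
      mul_inv_cancel₀ hρ0.ne', one_mul, hv]
    exact hlt (n k)
  have hβ0 : ∀ k, 0 < ‖v k x'‖ := fun k =>
    (mul_pos_iff_of_pos_left hρ0).1 (lt_of_le_of_lt (by positivity) (hβ k))
  refine ⟨fun k => (v k x')⁻¹ • v k, ρ / ε, 1 / 8, by norm_num, fun k => ?_, fun s a => ?_⟩
  · rw [norm_smul, norm_inv, inv_mul_le_iff₀ (hβ0 k), ← mul_div_assoc, le_div_iff₀ hε]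
    nlinarith [hβ k]
  · obtain ⟨J, hJ, hJ'⟩ := ell_quarter s a
    set C : ℝ := ∑ k ∈ J, ‖v k x'‖⁻¹ * ∑ i ∈ S (n k), ‖A (n k) i‖ with hC
    have hC0 : 0 ≤ C := Finset.sum_nonneg fun k _ => by positivity
    obtain ⟨y, hy1, hy2, hy3⟩ := ht x' hx1 (J.biUnion fun k => S (n k)) (1 / (8 * (C + 1)))
      (by positivity)
    have h1 : ∀ k ∈ J, ‖(v k x')⁻¹ * v k y - 1‖ ≤ 1 / 8 := by
      intro k hk
      have h2 : (v k x')⁻¹ * v k y - 1 = (v k x')⁻¹ * (v k y - v k x') := by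
        rw [mul_sub, inv_mul_cancel₀ (norm_pos_iff.1 (hβ0 k))]
      have h3 : ‖v k y - v k x'‖ ≤ (∑ i ∈ S (n k), ‖A (n k) i‖) * (1 / (8 * (C + 1))) := by
        rw [hv, hv, ← Finset.sum_sub_distrib, Finset.sum_mul]
        refine (norm_sum_le _ _).trans (Finset.sum_le_sum fun i hi => ?_)
        rw [← mul_sub, norm_mul]
        exact mul_le_mul_of_nonneg_left (hy2 i (Finset.mem_biUnion.2 ⟨k, hk, hi⟩)) (norm_nonneg _)
      have h4 : ‖v k x'‖⁻¹ * ∑ i ∈ S (n k), ‖A (n k) i‖ ≤ C :=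
        Finset.single_le_sum (f := fun k => ‖v k x'‖⁻¹ * ∑ i ∈ S (n k), ‖A (n k) i‖)
          (fun k _ => by positivity) hk
      rw [h2, norm_mul, norm_inv]
      refine (mul_le_mul_of_nonneg_left h3 (by positivity)).trans ?_
      rw [← mul_assoc]
      refine (mul_le_mul_of_nonneg_right h4 (by positivity)).trans ?_
      rw [mul_one_div, div_le_div_iff₀ (by positivity) (by norm_num)]
      linarith
    have h2 : ∀ k ∈ s, k ∉ J → a k * ((v k x')⁻¹ * v k y) = 0 := by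
      intro k _ hk
      rw [hv k y, Finset.sum_eq_zero, mul_zero, mul_zero]
      intro i hi
      rw [hy3 i, mul_zero]
      intro h
      obtain ⟨l, hl, hl'⟩ := Finset.mem_biUnion.1 h
      exact hk (hdisj k l i hi hl' ▸ hl)
    have h3 : (∑ k ∈ s, a k • (v k x')⁻¹ • v k) y =
        ∑ k ∈ J, a k + ∑ k ∈ J, a k * ((v k x')⁻¹ * v k y - 1) := by
      rw [← Finset.sum_add_distrib, ContinuousLinearMap.sum_apply]
      simp only [ContinuousLinearMap.smul_apply, smul_eq_mul]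
      rw [← Finset.sum_subset hJ h2]
      exact Finset.sum_congr rfl fun k _ => by ring
    have h4 : ‖∑ k ∈ J, a k * ((v k x')⁻¹ * v k y - 1)‖ ≤ 1 / 8 * ∑ k ∈ s, ‖a k‖ := by
      refine (norm_sum_le _ _).trans ?_
      rw [Finset.mul_sum]
      refine le_trans (Finset.sum_le_sum fun k hk => ?_)
        (Finset.sum_le_sum_of_subset_of_nonneg hJ fun k _ _ => by positivity)
      rw [norm_mul, mul_comm]
      exact mul_le_mul_of_nonneg_right (h1 k hk) (norm_nonneg _)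
    have h5 := (∑ k ∈ s, a k • (v k x')⁻¹ • v k).le_opNorm y
    have h6 : ‖∑ k ∈ s, a k • (v k x')⁻¹ • v k‖ * ‖y‖ ≤ ‖∑ k ∈ s, a k • (v k x')⁻¹ • v k‖ :=
      mul_le_of_le_one_right (norm_nonneg _) hy1
    have h7 := norm_le_add_norm_add (∑ k ∈ J, a k) (∑ k ∈ J, a k * ((v k x')⁻¹ * v k y - 1))
    rw [← h3] at h7
    linarith

end Vale.Agent.P129R
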