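import Vale.Agent.P129R.Defs

/-! A free sequence. -/

namespace Vale.Agent.P129R

open Filter Topology MeasureTheory Vale.Agent.P129

variable {𝕜 X : Type*} [RCLike 𝕜] [NormedAddCommGroup X] [NormedSpace 𝕜 X]

/-- the elements of `s` below `m`, in decreasing order -/
def idx (s : Finset ℕ) : ℕ → List ℕ
  | 0 => []
  | m + 1 => if m ∈ s then m :: idx s m else idx s m

/-- iterated random extension of a list -/
noncomputable def nu {Ω : Type} [MeasurableSpace Ω] [MeasurableSpace (List Ω)] (μ : Measure Ω) :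
    ℕ → List Ω → Measure (List Ω)
  | 0, t => Measure.dirac t
  | c + 1, t => μ.bind fun γ => nu μ c (γ :: t)

theorem nu_prob {Ω : Type} [MeasurableSpace Ω] [DiscreteMeasurableSpace Ω]
    [MeasurableSpace (List Ω)] (μ : Measure Ω) [IsProbabilityMeasure μ] (c : ℕ) (t : List Ω) :
    IsProbabilityMeasure (nu μ c t) := by
  induction c generalizing t with
  | zero => unfold nu; infer_instance
  | succ c ih =>
    unfold nu
    constructor
    rw [Measure.bind_apply MeasurableSet.univ (Measurable.of_discrete).aemeasurable]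
    have : ∀ γ, nu μ c (γ :: t) Set.univ = 1 := fun γ => (ih _).measure_univ
    simp [this]

theorem free_aux {Ω : Type} [MeasurableSpace Ω] (μ : Measure Ω) [IsProbabilityMeasure μ]
    {K : Type} [Countable K] (Q : K → Ω → ℕ → List Ω → Prop)
    (h1 : ∀ q c t, ∀ᵐ ω ∂μ, Q q ω c t)
    (h2 : ∀ q o c t, Q q o (c + 1) t → ∀ᵐ γ ∂μ, Q q o c (γ :: t)) :
    ∃ w : ℕ → Ω, ∀ (q : K) (s : Finset ℕ) (m j : ℕ), j ∉ s → Q q (w j) 0 ((idx s m).map w) := by
  classical
  have hpick : ∀ (W : Finset (List Ω)) (V : Finset Ω), ∃ ω, (∀ t ∈ W, ∀ c q, Q q ω c t) ∧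
      ∀ o ∈ V, ∀ t ∈ W, ∀ c q, Q q o (c + 1) t → Q q o c (ω :: t) := by
    intro W V
    have a1 : ∀ᵐ ω ∂μ, ∀ t ∈ W, ∀ c q, Q q ω c t :=
      (eventually_all_finset W).2 fun t _ => ae_all_iff.2 fun c => ae_all_iff.2 fun q => h1 q c t
    have a2 : ∀ᵐ ω ∂μ, ∀ o ∈ V, ∀ t ∈ W, ∀ c q, Q q o (c + 1) t → Q q o c (ω :: t) := by
      refine (eventually_all_finset V).2 fun o _ => (eventually_all_finset W).2 fun t _ =>
        ae_all_iff.2 fun c => ae_all_iff.2 fun q => ?_
      by_cases h : Q q o (c + 1) t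
      · exact (h2 q o c t h).mono fun γ hγ _ => hγ
      · exact Eventually.of_forall fun γ hγ => absurd hγ h
    exact (a1.and a2).exists
  choose pk hpk1 hpk2 using hpick
  let st : ℕ → Finset (List Ω) × Finset Ω := fun m => Nat.rec ({[]}, ∅)
    (fun _ s => (s.1 ∪ s.1.image fun t => pk s.1 s.2 :: t, insert (pk s.1 s.2) s.2)) m
  let w : ℕ → Ω := fun m => pk (st m).1 (st m).2
  have hst1 : ∀ m, (st (m + 1)).1 = (st m).1 ∪ (st m).1.image fun t => w m :: t := fun m => rfl
  have hst2 : ∀ m, (st (m + 1)).2 = insert (w m) (st m).2 := fun m => rfl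
  have hm1 : Monotone fun m => (st m).1 := monotone_nat_of_le_succ fun m => by
    simp only [hst1]; exact Finset.subset_union_left
  have hm2 : Monotone fun m => (st m).2 := monotone_nat_of_le_succ fun m => by
    simp only [hst2]; exact Finset.subset_insert _ _
  have hV : ∀ j m, j < m → w j ∈ (st m).2 := fun j m hjm =>
    hm2 (show j + 1 ≤ m from hjm) (by simp only [hst2]; exact Finset.mem_insert_self _ _)
  have hW : ∀ (s : Finset ℕ) m, (idx s m).map w ∈ (st m).1 := by
    intro s m
    induction m with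
    | zero => exact Finset.mem_singleton_self _
    | succ m ih =>
      rw [hst1]
      unfold idx
      split_ifs
      · exact Finset.mem_union_right _ (Finset.mem_image.2 ⟨_, ih, rfl⟩)
      · exact Finset.mem_union_left _ ih
  refine ⟨w, fun q s m j hj => ?_⟩
  have key : ∀ m c, Q q (w j) c ((idx s m).map w) := by
    intro m
    induction m with
    | zero => exact fun c => hpk1 _ _ _ (hm1 (Nat.zero_le j) (hW s 0)) c q
    | succ m ih =>
      intro c
      by_cases hjm : m + 1 ≤ j
      · exact hpk1 _ _ _ (hm1 hjm (hW s (m + 1))) c q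
      · unfold idx
        split_ifs with hms
        · have : j < m := by
            rcases Nat.lt_or_ge j m with h | h
            · exact h
            · exact absurd (show j = m by omega) fun h' => hj (h' ▸ hms)
          exact hpk2 _ _ _ (hV j m this) _ (hW s m) c q (ih (c + 1))
        · exact ih c
  exact key m 0

theorem free_seq {Ω : Type} [MeasurableSpace Ω] (μ : Measure Ω) [IsProbabilityMeasure μ]
    {K : Type} [Countable K] (P : K → Ω → List Ω → Prop)
    (hd : DiscreteMeasurableSpace Ω)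
    (hP : ∀ (q : K) (ν : @Measure (List Ω) ⊤), @IsProbabilityMeasure (List Ω) ⊤ ν →
      ∀ᵐ ω ∂μ, ∀ᶠ L in @ae (List Ω) _ _ _ ν, P q ω L) :
    ∃ w : ℕ → Ω, ∀ (q : K) (s : Finset ℕ) (m j : ℕ), j ∉ s → P q (w j) ((idx s m).map w) := by
  let _ : MeasurableSpace (List Ω) := ⊤
  obtain ⟨w, hw⟩ := free_aux μ (fun q ω c t => ∀ᵐ L ∂(nu μ c t), P q ω L)
    (fun q c t => hP q _ (nu_prob μ c t))
    (fun q o c t h => Measure.ae_ae_of_ae_bind (Measurable.of_discrete).aemeasurable h)
  refine ⟨w, fun q s m j hj => ?_⟩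
  have := hw q s m j hj
  unfold nu at this
  exact (ae_dirac_iff MeasurableSpace.measurableSet_top).1 this

end Vale.Agent.P129R
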