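import Vale.Agent.P129R.Defs

/-! The Khintchine inequality. -/

namespace Vale.Agent.P129R

open Filter Topology MeasureTheory Vale.Agent.P129

variable {𝕜 X : Type*} [RCLike 𝕜] [NormedAddCommGroup X] [NormedSpace 𝕜 X]

theorem Khin_succ (m : ℕ) (a : ℕ → 𝕜) (t : Node m) (b : Bool) :
    ∑ i ∈ Finset.range (m + 1), a i * rad 𝕜 (m + 1) i (t, b) =
      ∑ i ∈ Finset.range m, a i * rad 𝕜 m i t + (if b then a m else -a m) := by
  rw [Finset.sum_range_succ]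
  congr 1
  · refine Finset.sum_congr rfl fun i hi => ?_
    have : i ≠ m := (Finset.mem_range.1 hi).ne
    simp only [rad, if_neg this]
  · cases b <;> simp [rad]

theorem Khin_par (g b : 𝕜) : ‖g + b‖ ^ 2 + ‖g + -b‖ ^ 2 = 2 * ‖g‖ ^ 2 + 2 * ‖b‖ ^ 2 := by
  have := parallelogram_law_with_norm 𝕜 g b
  rw [← sub_eq_add_neg]
  nlinarith

theorem Khin_four (g b : 𝕜) :
    ‖g + b‖ ^ 4 + ‖g + -b‖ ^ 4 ≤ 2 * ‖g‖ ^ 4 + 12 * ‖b‖ ^ 2 * ‖g‖ ^ 2 + 2 * ‖b‖ ^ 4 := by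
  have h0 := Khin_par g b
  have h1 : ‖g + b‖ ^ 2 ≤ (‖g‖ + ‖b‖) ^ 2 := pow_le_pow_left₀ (norm_nonneg _) (norm_add_le _ _) 2
  have h2 : ‖g + -b‖ ^ 2 ≤ (‖g‖ + ‖b‖) ^ 2 :=
    pow_le_pow_left₀ (norm_nonneg _) (by simpa using norm_add_le g (-b)) 2
  have e1 : ‖g + b‖ ^ 4 = (‖g + b‖ ^ 2) ^ 2 := by ring
  have e2 : ‖g + -b‖ ^ 4 = (‖g + -b‖ ^ 2) ^ 2 := by ring
  rw [e1, e2]
  generalize ‖g + b‖ ^ 2 = P at h0 h1
  generalize ‖g + -b‖ ^ 2 = M at h0 h2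
  have h3 : (P - M) ^ 2 ≤ (4 * ‖g‖ * ‖b‖) ^ 2 := sq_le_sq' (by nlinarith) (by nlinarith)
  have h4 : (P + M) ^ 2 = (2 * ‖g‖ ^ 2 + 2 * ‖b‖ ^ 2) ^ 2 := by rw [h0]
  nlinarith

theorem Khin_mom (a : ℕ → 𝕜) (m : ℕ) :
    ∑ t : Node m, ‖∑ i ∈ Finset.range m, a i * rad 𝕜 m i t‖ ^ 2 =
        2 ^ m * ∑ i ∈ Finset.range m, ‖a i‖ ^ 2 ∧
      ∑ t : Node m, ‖∑ i ∈ Finset.range m, a i * rad 𝕜 m i t‖ ^ 4 ≤
        3 * 2 ^ m * (∑ i ∈ Finset.range m, ‖a i‖ ^ 2) ^ 2 := by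
  induction m with
  | zero => simp
  | succ m ih =>
    obtain ⟨h2, h4⟩ := ih
    have hc : ∀ c : ℝ, ∑ _t : Node m, c = 2 ^ m * c := fun c => by
      rw [Finset.sum_const, Finset.card_univ, card_node, nsmul_eq_mul]
      push_cast
      rfl
    rw [sum_node_succ, sum_node_succ, Finset.sum_range_succ (fun i => ‖a i‖ ^ 2)]
    simp only [Khin_succ, if_true, Bool.false_eq_true, if_false]
    constructor
    · simp only [Khin_par]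
      rw [Finset.sum_add_distrib, ← Finset.mul_sum, h2, hc]
      ring
    · refine (Finset.sum_le_sum fun t _ => Khin_four _ _).trans ?_
      rw [Finset.sum_add_distrib, Finset.sum_add_distrib, ← Finset.mul_sum, ← Finset.mul_sum, h2,
        hc, pow_succ (2 : ℝ) m]
      have h5 : (0 : ℝ) ≤ 2 ^ m * ‖a m‖ ^ 4 := by positivity
      nlinarith

theorem Khin_eq (a : ℕ → 𝕜) (m : ℕ) :
    (2 ^ m : ℝ) ^ 2 * ∑ i ∈ Finset.range m, ‖a i‖ ^ 2 ≤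
      3 * (∑ t : Node m, ‖∑ i ∈ Finset.range m, a i * rad 𝕜 m i t‖) ^ 2 := by
  obtain ⟨h2, h4⟩ := Khin_mom a m
  have hA : 0 ≤ ∑ i ∈ Finset.range m, ‖a i‖ ^ 2 := Finset.sum_nonneg fun _ _ => sq_nonneg _
  generalize ∑ i ∈ Finset.range m, ‖a i‖ ^ 2 = A at h2 h4 hA ⊢
  obtain ⟨f, hf⟩ : ∃ f : Node m → ℝ, ∀ t, f t = ‖∑ i ∈ Finset.range m, a i * rad 𝕜 m i t‖ :=
    ⟨_, fun _ => rfl⟩
  have hf0 : ∀ t, 0 ≤ f t := fun t => hf t ▸ norm_nonneg _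
  simp only [← hf] at h2 h4 ⊢
  have c1 : (∑ t, f t ^ 2) ^ 2 ≤ (∑ t, f t) * ∑ t, f t ^ 3 :=
    Finset.sum_sq_le_sum_mul_sum_of_sq_le_mul _ (fun t _ => hf0 t)
      (fun t _ => pow_nonneg (hf0 t) _) fun t _ => le_of_eq (by ring)
  have c2 : (∑ t, f t ^ 3) ^ 2 ≤ (∑ t, f t ^ 2) * ∑ t, f t ^ 4 :=
    Finset.sum_sq_le_sum_mul_sum_of_sq_le_mul _ (fun t _ => pow_nonneg (hf0 t) _)
      (fun t _ => pow_nonneg (hf0 t) _) fun t _ => le_of_eq (by ring)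
  rw [h2] at c1 c2
  have hN : (0 : ℝ) < 2 ^ m := by positivity
  generalize (2 : ℝ) ^ m = N at h4 c1 c2 hN ⊢
  generalize ∑ t, f t ^ 4 = S4 at h4 c2
  generalize ∑ t, f t ^ 3 = S3 at c1 c2
  generalize ∑ t, f t = S1 at c1 ⊢
  rcases hA.eq_or_lt with h0 | h0
  · rw [← h0, mul_zero]; positivity
  · have d1 : ((N * A) ^ 2) ^ 2 ≤ (S1 * S3) ^ 2 := pow_le_pow_left₀ (sq_nonneg _) c1 2
    have d2 : S3 ^ 2 ≤ N * A * (3 * N * A ^ 2) :=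
      c2.trans (mul_le_mul_of_nonneg_left h4 (by positivity))
    have d3 := mul_le_mul_of_nonneg_left d2 (sq_nonneg S1)
    refine le_of_mul_le_mul_right ?_ (show 0 < N ^ 2 * A ^ 3 by positivity)
    nlinarith

theorem khin (m n : ℕ) (hnm : n ≤ m) (a : ℕ → 𝕜) :
    (2 ^ m : ℝ) ^ 2 * ∑ i ∈ Finset.range n, ‖a i‖ ^ 2 ≤
      3 * (∑ t : Node m, ‖∑ i ∈ Finset.range n, a i * rad 𝕜 m i t‖) ^ 2 := by
  have h := Khin_eq (fun i => if i < n then a i else 0) m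
  have hs : Finset.range n ⊆ Finset.range m := Finset.range_mono hnm
  have e1 : ∑ i ∈ Finset.range m, ‖if i < n then a i else 0‖ ^ 2 =
      ∑ i ∈ Finset.range n, ‖a i‖ ^ 2 := by
    rw [← Finset.sum_subset hs fun i _ hi => by
      rw [if_neg (fun h => hi (Finset.mem_range.2 h))]; simp]
    exact Finset.sum_congr rfl fun i hi => by rw [if_pos (Finset.mem_range.1 hi)]
  have e2 : ∀ t : Node m, ∑ i ∈ Finset.range m, (if i < n then a i else 0) * rad 𝕜 m i t =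
      ∑ i ∈ Finset.range n, a i * rad 𝕜 m i t := by
    intro t
    rw [← Finset.sum_subset hs fun i _ hi => by
      rw [if_neg (fun h => hi (Finset.mem_range.2 h)), zero_mul]]
    exact Finset.sum_congr rfl fun i hi => by rw [if_pos (Finset.mem_range.1 hi)]
  simp only [e1, e2] at h
  exact h

end Vale.Agent.P129R
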