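import Vale.Agent.P129R.Surj
import Vale.Agent.P129.SQ

/-! Quotients onto square summable sequences. -/

namespace Vale.Agent.P129R

open Filter Topology MeasureTheory Vale.Agent.P129

variable {𝕜 X : Type*} [RCLike 𝕜] [NormedAddCommGroup X] [NormedSpace 𝕜 X]

theorem sq_of_l2 [CompleteSpace X] (ξ : ℕ → X →L[𝕜] 𝕜) (C c : ℝ) (hc : 0 < c)
    (hu : ∀ (x : X) (n : ℕ), ∑ i ∈ Finset.range n, ‖ξ i x‖ ^ 2 ≤ (C * ‖x‖) ^ 2)
    (hl : ∀ (n : ℕ) (a : ℕ → 𝕜),
      c ^ 2 * ∑ i ∈ Finset.range n, ‖a i‖ ^ 2 ≤ ‖∑ i ∈ Finset.range n, a i • ξ i‖ ^ 2) :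
    SQ 𝕜 X := by
  classical
  have h2 : (2 : ENNReal).toReal = 2 := by norm_num
  have hs : ∀ (x : X) (s : Finset ℕ), ∑ i ∈ s, ‖ξ i x‖ ^ (2 : ENNReal).toReal ≤
      (|C| * ‖x‖) ^ (2 : ENNReal).toReal := by
    intro x s
    simp only [h2, Real.rpow_two]
    obtain ⟨n, hn⟩ := s.exists_nat_subset_range
    refine (Finset.sum_le_sum_of_subset_of_nonneg hn fun _ _ _ => sq_nonneg _).trans
      ((hu x n).trans (le_of_eq ?_))
    rw [mul_pow, mul_pow, sq_abs]
  let T0 : X →ₗ[𝕜] lp (fun _ : ℕ => 𝕜) 2 :=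
    { toFun := fun x => ⟨fun i => ξ i x, memℓp_gen' (hs x)⟩
      map_add' := fun x y => by ext i; exact map_add (ξ i) x y
      map_smul' := fun a x => by ext i; simp }
  let T : X →L[𝕜] lp (fun _ : ℕ => 𝕜) 2 := T0.mkContinuous |C| fun x =>
    lp.norm_le_of_forall_sum_le (by rw [h2]; norm_num) (by positivity) (hs x)
  have hT : ∀ x i, T x i = ξ i x := fun x i => rfl
  have hlim : ∀ u : lp (fun _ : ℕ => 𝕜) 2,
      Tendsto (fun n => ∑ i ∈ Finset.range n, lp.single (E := fun _ : ℕ => 𝕜) 2 i (u i))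
        atTop (𝓝 u) := fun u => (lp.hasSum_single (by norm_num) u).tendsto_sum_nat
  have hdual : ∀ F : lp (fun _ : ℕ => 𝕜) 2 →L[𝕜] 𝕜, c * ‖F‖ ≤ ‖F.comp T‖ := by
    intro F
    obtain ⟨u, rfl⟩ := (InnerProductSpace.toDual 𝕜 (lp (fun _ : ℕ => 𝕜) 2)).surjective F
    have hcont : Continuous fun w : lp (fun _ : ℕ => 𝕜) 2 =>
        ‖(InnerProductSpace.toDual 𝕜 _ w).comp T‖ :=
      ((InnerProductSpace.toDual 𝕜 _).continuous.clm_comp continuous_const).norm
    have hcont' : Continuous fun w : lp (fun _ : ℕ => 𝕜) 2 => c * ‖w‖ := by fun_prop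
    rw [LinearIsometryEquiv.norm_map]
    refine le_of_tendsto_of_tendsto' ((hcont'.tendsto u).comp (hlim u))
      ((hcont.tendsto u).comp (hlim u)) fun n => ?_
    have h3 := lp.norm_sum_single (E := fun _ : ℕ => 𝕜) (p := 2) (by rw [h2]; norm_num) u
      (Finset.range n)
    simp only [h2, Real.rpow_two] at h3
    have h4 : (InnerProductSpace.toDual 𝕜 _
        (∑ i ∈ Finset.range n, lp.single (E := fun _ : ℕ => 𝕜) 2 i (u i))).comp T =
        ∑ i ∈ Finset.range n, (starRingEnd 𝕜 (u i)) • ξ i := by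
      ext x
      rw [ContinuousLinearMap.comp_apply, InnerProductSpace.toDual_apply_apply, sum_inner,
        ContinuousLinearMap.sum_apply]
      refine Finset.sum_congr rfl fun i _ => ?_
      rw [lp.inner_single_left, hT]
      simp [mul_comm]
    have h5 := hl n fun i => starRingEnd 𝕜 (u i)
    simp only [RCLike.norm_conj] at h5
    rw [← h3, ← h4, ← mul_pow] at h5
    exact (abs_le_of_sq_le_sq' h5 (norm_nonneg _)).2
  refine sq_of_seq (fun n => ((c⁻¹ : ℝ) : 𝕜) • ξ n) (fun n => ?_)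
    {z | ∀ᶠ k in atTop, ξ k z = 0} ?_ fun x hx => ?_
  · have h3 := hl (n + 1) fun i => if i = n then 1 else 0
    have h4 : ∑ i ∈ Finset.range (n + 1), ‖(if i = n then 1 else 0 : 𝕜)‖ ^ 2 = 1 := by
      rw [Finset.sum_eq_single n (fun b _ hb => by simp [hb]) (by simp)]
      simp
    have h5 : ∑ i ∈ Finset.range (n + 1), (if i = n then 1 else 0 : 𝕜) • ξ i = ξ n := by
      rw [Finset.sum_eq_single n (fun b _ hb => by rw [if_neg hb]; exact zero_smul 𝕜 (ξ b))
        (by simp), if_pos rfl]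
      exact one_smul 𝕜 (ξ n)
    rw [h4, h5, mul_one] at h3
    have h6 : c ≤ ‖ξ n‖ := abs_le_of_sq_le_sq' h3 (norm_nonneg _) |>.2
    rw [norm_smul, RCLike.norm_ofReal, abs_of_pos (inv_pos.2 hc)]
    have h7 : 1 ≤ c⁻¹ * ‖ξ n‖ := by
      rw [← div_eq_inv_mul, le_div_iff₀ hc]; linarith
    linarith
  · refine Metric.dense_iff.2 fun x ε hε => ?_
    have h3 : Tendsto (fun n => 2 / c * ‖T x -
        ∑ i ∈ Finset.range n, lp.single (E := fun _ : ℕ => 𝕜) 2 i (T x i)‖) atTop (𝓝 0) := by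
      have h4 := ((tendsto_const_nhds (x := T x)).sub (hlim (T x))).norm.const_mul (2 / c)
      simpa using h4
    obtain ⟨N, hN⟩ := (h3.eventually (gt_mem_nhds hε)).exists
    obtain ⟨y, hy, hy'⟩ := surj_of_dual T c hc hdual
      (T x - ∑ i ∈ Finset.range N, lp.single (E := fun _ : ℕ => 𝕜) 2 i (T x i))
    refine ⟨x - y, ?_, ?_⟩
    · rw [Metric.mem_ball, dist_eq_norm, sub_sub_cancel_left, norm_neg]
      exact hy'.trans_lt hN
    · filter_upwards [eventually_ge_atTop N] with k hk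
      rw [← hT, map_sub, hy, sub_sub_cancel, lp.coeFn_sum, Finset.sum_apply]
      refine Finset.sum_eq_zero fun i hi => ?_
      have : k ≠ i := by
        have := Finset.mem_range.1 hi
        omega
      exact lp.single_apply_ne (E := fun _ : ℕ => 𝕜) 2 i _ this
  · filter_upwards [hx] with k hk
    simp [hk]

end Vale.Agent.P129R
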