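import Vale.Agent.P129R.Defs
import Vale.Agent.P129.SQ

/-! An annihilating functional. -/

namespace Vale.Agent.P129R

open Filter Topology MeasureTheory Vale.Agent.P129

variable {𝕜 X : Type*} [RCLike 𝕜] [NormedAddCommGroup X] [NormedSpace 𝕜 X]

theorem exists_perp [CompleteSpace X] (hq : ¬ SQ 𝕜 X) (ψ : ℕ → X →L[𝕜] 𝕜)
    (hψ : ∀ n, 2 / 5 ≤ ‖ψ n‖) :
    ∃ h : X →L[𝕜] 𝕜, ‖h‖ = 1 ∧
      ∀ x, (∀ᶠ n in atTop, ‖ψ n x‖ ≤ (1 / 4 : ℝ) ^ n) → h x = 0 := by
  let E : Submodule 𝕜 X :=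
    { carrier := {x | Tendsto (fun n : ℕ => (2 : 𝕜) ^ n * ψ n x) atTop (𝓝 0)}
      add_mem' := by
        intro a b ha hb
        have := Tendsto.add ha hb
        simpa [mul_add] using this
      zero_mem' := by simp
      smul_mem' := by
        intro c a ha
        have := Tendsto.const_mul c ha
        simpa [mul_left_comm] using this }
  have hE : ∀ x, x ∈ E ↔ Tendsto (fun n : ℕ => (2 : 𝕜) ^ n * ψ n x) atTop (𝓝 0) :=
    fun x => Iff.rfl
  have hn : ∀ (n : ℕ) (x : X), ‖(2 : 𝕜) ^ n * ψ n x‖ = 2 ^ n * ‖ψ n x‖ := by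
    intro n x
    rw [norm_mul, norm_pow, RCLike.norm_two]
  have hnd : ¬ Dense (E : Set X) := by
    intro hd
    refine hq (sq_of_seq ψ hψ E hd fun x hx => ?_)
    have h1 := ((hE x).1 hx).norm
    rw [norm_zero] at h1
    filter_upwards [h1.eventually (gt_mem_nhds (show (0 : ℝ) < 1 by norm_num))] with n h2
    rw [hn] at h2
    have h3 : (0 : ℝ) < 2 ^ n := by positivity
    rw [one_div, inv_pow, inv_eq_one_div, le_div_iff₀ h3]
    linarith
  have hmem : ∀ x, (∀ᶠ n in atTop, ‖ψ n x‖ ≤ (1 / 4 : ℝ) ^ n) → x ∈ E := by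
    intro x hx
    rw [hE, tendsto_zero_iff_norm_tendsto_zero]
    refine squeeze_zero' (Eventually.of_forall fun n => norm_nonneg _) ?_
      (tendsto_pow_atTop_nhds_zero_of_lt_one (r := (1 / 2 : ℝ)) (by norm_num) (by norm_num))
    filter_upwards [hx] with n h2
    rw [hn]
    calc (2 : ℝ) ^ n * ‖ψ n x‖ ≤ 2 ^ n * (1 / 4) ^ n :=
          mul_le_mul_of_nonneg_left h2 (by positivity)
      _ = (1 / 2) ^ n := by rw [← mul_pow]; norm_num
  rw [Submodule.dense_iff_topologicalClosure_eq_top] at hnd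
  obtain ⟨x0, hx0⟩ : ∃ x0, x0 ∉ E.topologicalClosure := by
    by_contra hc
    push Not at hc
    exact hnd (Submodule.eq_top_iff'.2 hc)
  haveI : IsClosed (E.topologicalClosure : Set X) := E.isClosed_topologicalClosure
  have hq0 : ‖(E.topologicalClosure.mkQ x0 : X ⧸ E.topologicalClosure)‖ ≠ 0 := by
    intro h0
    rw [norm_eq_zero, Submodule.mkQ_apply, Submodule.Quotient.mk_eq_zero] at h0
    exact hx0 h0
  obtain ⟨g, -, hg⟩ := exists_dual_vector 𝕜 _ hq0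
  obtain ⟨h0, hh0⟩ : ∃ h0 : X →L[𝕜] 𝕜, ∀ x, h0 x = g (E.topologicalClosure.mkQ x) :=
    ⟨g.comp E.topologicalClosure.mkQL, fun x => rfl⟩
  have hne : h0 ≠ 0 := by
    intro hz
    have h1 := hh0 x0
    rw [hz, hg] at h1
    simp only [ContinuousLinearMap.zero_apply] at h1
    exact hq0 (by exact_mod_cast h1.symm)
  have hpos : 0 < ‖h0‖ := norm_pos_iff.2 hne
  refine ⟨((‖h0‖⁻¹ : ℝ) : 𝕜) • h0, ?_, fun x hx => ?_⟩
  · rw [norm_smul, RCLike.norm_ofReal, abs_of_pos (inv_pos.2 hpos), inv_mul_cancel₀ hpos.ne']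
  · have h1 : E.topologicalClosure.mkQ x = 0 := by
      rw [Submodule.mkQ_apply, Submodule.Quotient.mk_eq_zero]
      exact E.le_topologicalClosure (hmem x hx)
    rw [ContinuousLinearMap.smul_apply, hh0, h1, map_zero, smul_zero]

end Vale.Agent.P129R
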