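import Vale.Agent.P129R.Approx
import Vale.Agent.P129.SQ

/-! The shrinking case. -/

namespace Vale.Agent.P129R

open Filter Topology MeasureTheory Vale.Agent.P129

variable {𝕜 X : Type*} [RCLike 𝕜] [NormedAddCommGroup X] [NormedSpace 𝕜 X]

theorem shr_trunc {g : ℕ → X →L[𝕜] 𝕜} (ht : Trunc g) (z : X) (r : ℝ) (hr : 0 < r) (hz : ‖z‖ ≤ r)
    (s : Finset ℕ) (η : ℝ) (hη : 0 < η) :
    ∃ y : X, ‖y‖ ≤ r ∧ (∀ i ∈ s, ‖g i y - g i z‖ ≤ η) ∧ ∀ j, j ∉ s → g j y = 0 := by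
  have hn : ‖(r : 𝕜)‖ = r := by rw [RCLike.norm_ofReal, abs_of_pos hr]
  have hr0 : (r : 𝕜) ≠ 0 := by
    intro h
    rw [h, norm_zero] at hn
    exact hr.ne hn
  obtain ⟨y, h1, h2, h3⟩ := ht ((r : 𝕜)⁻¹ • z) (by
    rw [norm_smul, norm_inv, hn, inv_mul_le_iff₀ hr, mul_one]
    exact hz) s (η / r) (by positivity)
  refine ⟨(r : 𝕜) • y, ?_, fun i hi => ?_, fun j hj => ?_⟩
  · rw [norm_smul, hn]
    exact mul_le_of_le_one_right hr.le h1
  · have e : g i ((r : 𝕜) • y) - g i z = (r : 𝕜) * (g i y - g i ((r : 𝕜)⁻¹ • z)) := by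
      rw [map_smul, map_smul, smul_eq_mul, smul_eq_mul, mul_sub, ← mul_assoc,
        mul_inv_cancel₀ hr0, one_mul]
    rw [e, norm_mul, hn, ← le_div_iff₀' hr]
    exact h2 i hi
  · rw [map_smul, h3 j hj, smul_zero]

theorem shr_find {N : ℕ → ℕ} (hN : StrictMono N) (j : ℕ) (hj : N 0 ≤ j) :
    ∃ k, N k ≤ j ∧ j < N (k + 1) := by
  induction j, hj using Nat.le_induction with
  | base => exact ⟨0, le_rfl, hN (by omega)⟩
  | succ j _ ih =>
    obtain ⟨k, h1, h2⟩ := ih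
    by_cases h : j + 1 < N (k + 1)
    · exact ⟨k, by omega, h⟩
    · have h3 : N (k + 1) < N (k + 1 + 1) := hN (by omega)
      exact ⟨k + 1, by omega, by omega⟩

theorem shr_approx [CompleteSpace X] {g : ℕ → X →L[𝕜] 𝕜} (ht : Trunc g) (hs : Shr g) (x : X)
    (ε : ℝ) (hε : 0 < ε) :
    ∃ y : X, ‖y‖ ≤ ε ∧ ∀ᶠ j in atTop, ‖g j (x - y)‖ ≤ (1 / 2 : ℝ) ^ j := by
  choose M hM using fun k : ℕ => hs x (ε / 2 / 2 ^ k) (by positivity)
  obtain ⟨N, hN, hMN⟩ : ∃ N : ℕ → ℕ, StrictMono N ∧ ∀ k, M k ≤ N k := by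
    refine ⟨fun k => ∑ i ∈ Finset.range (k + 1), M i + k, strictMono_nat_of_lt_succ fun k => ?_,
      fun k => ?_⟩
    · rw [Finset.sum_range_succ _ (k + 1)]
      omega
    · show M k ≤ ∑ i ∈ Finset.range (k + 1), M i + k
      rw [Finset.sum_range_succ]
      omega
  have key : ∀ k : ℕ, ∃ y : X, ‖y‖ ≤ ε / 2 / 2 ^ k ∧
      (∀ i ∈ Finset.Ico (N k) (N (k + 1)), ‖g i x - g i y‖ ≤ (1 / 2 : ℝ) ^ i) ∧
      ∀ j, j ∉ Finset.Ico (N k) (N (k + 1)) → g j y = 0 := by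
    intro k
    obtain ⟨z, hz1, hz2⟩ := helly g (Finset.Ico (N k) (N (k + 1))) (fun i => g i x)
      (ε / 2 / 2 ^ k) (by positivity)
      (fun a => hM k _ a fun i hi => (hMN k).trans (Finset.mem_Ico.1 hi).1)
      ((1 / 2 : ℝ) ^ N (k + 1) / 2) (by positivity)
    obtain ⟨y, h1, h2, h3⟩ := shr_trunc ht z _ (by positivity) hz1 (Finset.Ico (N k) (N (k + 1)))
      ((1 / 2 : ℝ) ^ N (k + 1) / 2) (by positivity)
    refine ⟨y, h1, fun i hi => ?_, h3⟩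
    have h4 : (1 / 2 : ℝ) ^ N (k + 1) ≤ (1 / 2 : ℝ) ^ i :=
      pow_le_pow_of_le_one (by norm_num) (by norm_num) (Finset.mem_Ico.1 hi).2.le
    have h5 := norm_add_le (g i y - g i z) (g i z - g i x)
    rw [sub_add_sub_cancel, norm_sub_rev] at h5
    linarith [h2 i hi, hz2 i hi]
  choose y h1 h2 h3 using key
  have hg := hasSum_geometric_two' ε
  have hy : Summable y := Summable.of_norm_bounded hg.summable h1
  refine ⟨∑' k, y k, tsum_of_norm_bounded hg h1, eventually_atTop.2 ⟨N 0, fun j hj => ?_⟩⟩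
  obtain ⟨k, k1, k2⟩ := shr_find hN j hj
  have e : g j (∑' k, y k) = g j (y k) := by
    rw [(g j).map_tsum hy]
    refine tsum_eq_single k fun m hm => h3 m j fun hc => ?_
    obtain ⟨c1, c2⟩ := Finset.mem_Ico.1 hc
    rcases lt_or_gt_of_ne hm with h | h
    · have := hN.monotone (show m + 1 ≤ k by omega)
      omega
    · have := hN.monotone (show k + 1 ≤ m by omega)
      omega
  rw [map_sub, e]
  exact h2 k j (Finset.mem_Ico.2 ⟨k1, k2⟩)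

theorem sq_of_shr [CompleteSpace X] (g : ℕ → X →L[𝕜] 𝕜) (hg : ∀ n, ‖g n‖ = 1) (ht : Trunc g)
    (hs : Shr g) : SQ 𝕜 X := by
  refine sq_of_seq g (fun n => by rw [hg]; norm_num)
    {z | ∀ᶠ j in atTop, ‖g j z‖ ≤ (1 / 2 : ℝ) ^ j} ?_ fun x hx => hx
  refine Metric.dense_iff.2 fun x r hr => ?_
  obtain ⟨y, h1, h2⟩ := shr_approx ht hs x (r / 2) (by positivity)
  refine ⟨x - y, ?_, h2⟩
  rw [Metric.mem_ball, dist_eq_norm, sub_sub_cancel_left, norm_neg]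
  linarith

end Vale.Agent.P129R
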