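import Vale.Agent.P129R.Free

/-! Truncation from freeness. -/

namespace Vale.Agent.P129R

open Filter Topology MeasureTheory Vale.Agent.P129

variable {𝕜 X : Type*} [RCLike 𝕜] [NormedAddCommGroup X] [NormedSpace 𝕜 X]

theorem mem_idx (s : Finset ℕ) (m i : ℕ) (hi : i ∈ s) (him : i < m) : i ∈ idx s m := by
  induction m with
  | zero => omega
  | succ m ih =>
    unfold idx
    by_cases h : i = m
    · subst h; simp [hi]
    · split_ifs
      · exact List.mem_cons_of_mem _ (ih (by omega))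
      · exact ih (by omega)

theorem trunc_of_free {Ω : Type} (h : Ω → X →L[𝕜] 𝕜)
    (hfree : ∀ x : (List ℕ × ℕ) → List Ω → X, ∃ w : ℕ → Ω,
      ∀ q (s : Finset ℕ) (m j : ℕ), j ∉ s → h (w j) (x q ((idx s m).map w)) = 0) :
    ∃ w : ℕ → Ω, Trunc fun n => h (w n) := by
  classical
  let d : ℕ → 𝕜 := TopologicalSpace.denseSeq 𝕜
  let A : (List ℕ × ℕ) → List Ω → X → Prop := fun q L y =>
    ‖y‖ ≤ 1 ∧ ∀ p ∈ L.zip q.1, ‖h p.1 y - d p.2‖ ≤ 1 / ((q.2 : ℝ) + 1)
  let x : (List ℕ × ℕ) → List Ω → X := fun q L => if hy : ∃ y, A q L y then hy.choose else 0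
  have hx : ∀ q L, (∃ y, A q L y) → A q L (x q L) := by
    intro q L hy
    simp only [x, dif_pos hy]
    exact hy.choose_spec
  obtain ⟨w, hw⟩ := hfree x
  refine ⟨w, fun z hz s η hη => ?_⟩
  obtain ⟨n, hn⟩ := exists_nat_one_div_lt (half_pos hη)
  have hc : ∀ i, ∃ c : ℕ, ‖h (w i) z - d c‖ ≤ 1 / ((n : ℝ) + 1) := by
    intro i
    obtain ⟨c, hc⟩ := (TopologicalSpace.denseRange_denseSeq 𝕜).exists_dist_lt (h (w i) z)
      (show (0 : ℝ) < 1 / ((n : ℝ) + 1) by positivity)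
    exact ⟨c, by rw [← dist_eq_norm]; exact hc.le⟩
  choose c hc using hc
  set m := s.sup id + 1 with hm
  have hA := hx ((idx s m).map c, n) ((idx s m).map w) ⟨z, hz, by
    intro p hp
    rw [List.zip_map'] at hp
    obtain ⟨i, -, rfl⟩ := List.mem_map.1 hp
    exact hc i⟩
  refine ⟨_, hA.1, fun i hi => ?_, fun j hj => hw _ s m j hj⟩
  have h1 := hA.2 (w i, c i) (by
    rw [List.zip_map']
    refine List.mem_map.2 ⟨i, mem_idx s m i hi ?_, rfl⟩
    have : id i ≤ s.sup id := Finset.le_sup hi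
    simp only [id] at this
    omega)
  have h2 := hc i
  have h3 := norm_sub_le_norm_sub_add_norm_sub
    (h (w i) (x ((idx s m).map c, n) ((idx s m).map w))) (d (c i)) (h (w i) z)
  rw [norm_sub_rev (d (c i))] at h3
  simp only at h1 ⊢
  linarith

end Vale.Agent.P129R
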