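import Vale.Agent.P129R.Tree2
import Vale.Agent.P129R.Khin
import Vale.Agent.P129.ULim
import Vale.Agent.P129.Bessel

/-! Rademacher functionals. -/

namespace Vale.Agent.P129R

open Filter Topology MeasureTheory Vale.Agent.P129

variable {𝕜 X : Type*} [RCLike 𝕜] [NormedAddCommGroup X] [NormedSpace 𝕜 X]

theorem xi_count (v : ℕ → X →L[𝕜] 𝕜) (R δ : ℝ) (hδ : 0 < δ) (hR : ∀ k, ‖v k‖ ≤ R) (hG : Good v δ)
    (a : ℕ → ℕ → 𝕜) :
    ∃ ξ : ℕ → X →L[𝕜] 𝕜,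
      (∀ (x : X) (n : ℕ), ∑ i ∈ Finset.range n, ‖ξ i x‖ ^ 2 ≤ (R * ‖x‖) ^ 2) ∧
      ∀ n : ℕ, (δ / 2) ^ 2 * ∑ i ∈ Finset.range n, ‖a n i‖ ^ 2 ≤
        ‖∑ i ∈ Finset.range n, a n i • ξ i‖ ^ 2 := by
  obtain ⟨e, x, hx1, hx⟩ := tree2 v R δ hR hG a
  have hR0 : 0 ≤ R := (norm_nonneg _).trans (hR 0)
  have hle : (hyperfilter ℕ : Filter ℕ) ≤ atTop := Nat.hyperfilter_le_atTop
  have hη : ∀ (m : ℕ) (t : Node m), ∃ η : X →L[𝕜] 𝕜, ‖η‖ ≤ R ∧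
      ∀ y, Tendsto (fun j => v (e m t j) y) (hyperfilter ℕ : Filter ℕ) (𝓝 (η y)) :=
    fun m t => ulim (fun j => v (e m t j)) R (fun j => hR _)
  choose η hηR hηT using hη
  obtain ⟨ξ', hξ'⟩ : ∃ ξ' : ℕ → ℕ → X →L[𝕜] 𝕜,
      ξ' = fun n m => ((2 : 𝕜) ^ m)⁻¹ • ∑ t : Node m, rad 𝕜 m n t • η m t := ⟨_, rfl⟩
  have h2pos : ∀ m : ℕ, (0 : ℝ) < 2 ^ m := fun m => by positivity
  have hn2 : ∀ m : ℕ, ‖((2 : 𝕜) ^ m)⁻¹‖ = ((2 : ℝ) ^ m)⁻¹ := by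
    intro m
    rw [norm_inv, norm_pow, RCLike.norm_two]
  have happ : ∀ n m y, ‖ξ' n m y‖ = ((2 : ℝ) ^ m)⁻¹ * ‖∑ t : Node m, rad 𝕜 m n t * η m t y‖ := by
    intro n m y
    rw [hξ']
    simp only [ContinuousLinearMap.smul_apply, ContinuousLinearMap.sum_apply, smul_eq_mul]
    rw [norm_mul, hn2]
  have hξ'R : ∀ n m, ‖ξ' n m‖ ≤ R := by
    intro n m
    rw [hξ']
    simp only
    rw [norm_smul, hn2]
    have h1 : ‖∑ t : Node m, rad 𝕜 m n t • η m t‖ ≤ 2 ^ m * R := by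
      calc ‖∑ t : Node m, rad 𝕜 m n t • η m t‖ ≤ ∑ t : Node m, ‖rad 𝕜 m n t • η m t‖ :=
            norm_sum_le _ _
        _ ≤ ∑ _t : Node m, R := by
            refine Finset.sum_le_sum fun t _ => ?_
            rw [norm_smul]
            calc ‖rad 𝕜 m n t‖ * ‖η m t‖ ≤ 1 * R :=
                  mul_le_mul (norm_rad_le 𝕜 m n t) (hηR m t) (norm_nonneg _) zero_le_one
              _ = R := one_mul R
        _ = 2 ^ m * R := by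
            rw [Finset.sum_const, Finset.card_univ, card_node, nsmul_eq_mul]
            push_cast
            ring
    calc ((2 : ℝ) ^ m)⁻¹ * ‖∑ t : Node m, rad 𝕜 m n t • η m t‖ ≤ ((2 : ℝ) ^ m)⁻¹ * (2 ^ m * R) :=
          mul_le_mul_of_nonneg_left h1 (inv_nonneg.2 (h2pos m).le)
      _ = R := by
          have := (h2pos m).ne'
          field_simp
  have hξ : ∀ n : ℕ, ∃ ξ : X →L[𝕜] 𝕜, ‖ξ‖ ≤ R ∧
      ∀ y, Tendsto (fun m => ξ' n m y) (hyperfilter ℕ : Filter ℕ) (𝓝 (ξ y)) :=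
    fun n => ulim (ξ' n) R (hξ'R n)
  choose ξ _hξR hξT using hξ
  have hbes : ∀ (y : X) M m, M ≤ m → ∑ i ∈ Finset.range M, ‖ξ' i m y‖ ^ 2 ≤ (R * ‖y‖) ^ 2 := by
    intro y M m hMm
    have h1 := bessel (𝕜 := 𝕜) m (fun t => η m t y) (R * ‖y‖) (fun t =>
      ((η m t).le_opNorm y).trans (mul_le_mul_of_nonneg_right (hηR m t) (norm_nonneg _)))
    calc ∑ i ∈ Finset.range M, ‖ξ' i m y‖ ^ 2 ≤ ∑ i ∈ Finset.range m, ‖ξ' i m y‖ ^ 2 :=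
          Finset.sum_le_sum_of_subset_of_nonneg (Finset.range_mono hMm)
            (fun _ _ _ => sq_nonneg _)
      _ = (((2 : ℝ) ^ m)⁻¹) ^ 2 *
            ∑ i ∈ Finset.range m, ‖∑ t : Node m, rad 𝕜 m i t * η m t y‖ ^ 2 := by
          rw [Finset.mul_sum]
          refine Finset.sum_congr rfl fun i _ => ?_
          rw [happ, mul_pow]
      _ ≤ (((2 : ℝ) ^ m)⁻¹) ^ 2 * (2 ^ m * (R * ‖y‖)) ^ 2 :=
          mul_le_mul_of_nonneg_left h1 (sq_nonneg _)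
      _ = (R * ‖y‖) ^ 2 := by
          have := (h2pos m).ne'
          field_simp
  have hbes' : ∀ (y : X) M, ∑ i ∈ Finset.range M, ‖ξ i y‖ ^ 2 ≤ (R * ‖y‖) ^ 2 := by
    intro y M
    have hT : Tendsto (fun m => ∑ i ∈ Finset.range M, ‖ξ' i m y‖ ^ 2) (hyperfilter ℕ : Filter ℕ)
        (𝓝 (∑ i ∈ Finset.range M, ‖ξ i y‖ ^ 2)) :=
      tendsto_finset_sum _ fun i _ => ((hξT i y).norm).pow 2
    refine le_of_tendsto hT ?_
    refine Filter.Eventually.filter_mono hle ?_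
    filter_upwards [eventually_ge_atTop M] with m hm using hbes y M m hm
  have happ' : ∀ i m y, ξ' i m y = ((2 : 𝕜) ^ m)⁻¹ * ∑ t : Node m, rad 𝕜 m i t * η m t y := by
    intro i m y
    rw [hξ']
    simp only [ContinuousLinearMap.smul_apply, ContinuousLinearMap.sum_apply, smul_eq_mul]
  refine ⟨ξ, hbes', fun n => ?_⟩
  obtain ⟨A, hA⟩ : ∃ A : ℝ, A = ∑ i ∈ Finset.range n, ‖a n i‖ ^ 2 := ⟨_, rfl⟩
  have hA0 : 0 ≤ A := by rw [hA]; exact Finset.sum_nonneg fun _ _ => sq_nonneg _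
  have hlow : ∀ m, n < m →
      (δ / 2) ^ 2 * A ≤ ‖∑ i ∈ Finset.range n, a n i * ξ' i m (x n)‖ ^ 2 := by
    intro m hnm
    obtain ⟨val, hval, hb⟩ := hx m n hnm
    have hv : ∀ t, η m t (x n) = val t := fun t =>
      tendsto_nhds_unique (hηT m t (x n)) ((hval t).mono_left hle)
    have he : ∑ i ∈ Finset.range n, a n i * ξ' i m (x n) = ((2 : 𝕜) ^ m)⁻¹ *
        ∑ t : Node m, (∑ i ∈ Finset.range n, a n i * rad 𝕜 m i t) * val t := by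
      simp only [happ', hv, Finset.sum_mul, Finset.mul_sum]
      rw [Finset.sum_comm]
      refine Finset.sum_congr rfl fun t _ => Finset.sum_congr rfl fun i _ => ?_
      ring
    have hk := khin (𝕜 := 𝕜) m n hnm.le (a n)
    rw [← hA] at hk
    rw [he, norm_mul, hn2]
    obtain ⟨S, hS⟩ : ∃ S : ℝ, S = ∑ t : Node m, ‖∑ i ∈ Finset.range n, a n i * rad 𝕜 m i t‖ :=
      ⟨_, rfl⟩
    have hS0 : 0 ≤ S := by rw [hS]; exact Finset.sum_nonneg fun _ _ => norm_nonneg _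
    rw [← hS] at hk hb
    obtain ⟨T, hT⟩ : ∃ T : ℝ,
      T = ‖∑ t : Node m, (∑ i ∈ Finset.range n, a n i * rad 𝕜 m i t) * val t‖ := ⟨_, rfl⟩
    rw [← hT] at hb ⊢
    have hp := h2pos m
    have h1 : (δ * S) ^ 2 ≤ T ^ 2 := pow_le_pow_left₀ (by positivity) hb 2
    have h2 : δ ^ 2 * (((2 : ℝ) ^ m) ^ 2 * A) ≤ δ ^ 2 * (3 * S ^ 2) :=
      mul_le_mul_of_nonneg_left hk (sq_nonneg _)
    have h3 : ((2 : ℝ) ^ m) ^ 2 * ((δ / 2) ^ 2 * A) ≤ T ^ 2 := by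
      have h4 : 0 ≤ δ ^ 2 * S ^ 2 := by positivity
      nlinarith
    calc (δ / 2) ^ 2 * A = (((2 : ℝ) ^ m)⁻¹) ^ 2 * (((2 : ℝ) ^ m) ^ 2 * ((δ / 2) ^ 2 * A)) := by
          have := hp.ne'
          field_simp
      _ ≤ (((2 : ℝ) ^ m)⁻¹) ^ 2 * T ^ 2 := mul_le_mul_of_nonneg_left h3 (sq_nonneg _)
      _ = (((2 : ℝ) ^ m)⁻¹ * T) ^ 2 := by ring
  have hT : Tendsto (fun m => ‖∑ i ∈ Finset.range n, a n i * ξ' i m (x n)‖ ^ 2)
      (hyperfilter ℕ : Filter ℕ) (𝓝 (‖∑ i ∈ Finset.range n, a n i * ξ i (x n)‖ ^ 2)) :=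
    ((tendsto_finset_sum _ fun i _ => (hξT i (x n)).const_mul (a n i)).norm).pow 2
  have h1 : (δ / 2) ^ 2 * A ≤ ‖∑ i ∈ Finset.range n, a n i * ξ i (x n)‖ ^ 2 := by
    refine ge_of_tendsto hT ?_
    refine Filter.Eventually.filter_mono hle ?_
    filter_upwards [eventually_gt_atTop n] with m hm using hlow m hm
  have h2 : ‖∑ i ∈ Finset.range n, a n i * ξ i (x n)‖ ≤ ‖∑ i ∈ Finset.range n, a n i • ξ i‖ := by
    have h3 : ∑ i ∈ Finset.range n, a n i * ξ i (x n) =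
        (∑ i ∈ Finset.range n, a n i • ξ i) (x n) := by
      simp only [ContinuousLinearMap.smul_apply, ContinuousLinearMap.sum_apply, smul_eq_mul]
    rw [h3]
    calc _ ≤ ‖∑ i ∈ Finset.range n, a n i • ξ i‖ * ‖x n‖ := ContinuousLinearMap.le_opNorm _ _
      _ ≤ ‖∑ i ∈ Finset.range n, a n i • ξ i‖ * 1 :=
          mul_le_mul_of_nonneg_left (hx1 n) (norm_nonneg _)
      _ = _ := mul_one _
  rw [← hA]
  exact h1.trans (pow_le_pow_left₀ (norm_nonneg _) h2 2)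

end Vale.Agent.P129R
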