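import Vale.Agent.P129R.Unif
import Vale.Agent.P129R.Rand
import Vale.Agent.P129R.Perp
import Vale.Agent.P129R.TruncL
import Vale.Agent.P129R.Shr
import Vale.Agent.P129R.Ell
import Vale.Agent.P129R.Dich
import Vale.Agent.P129R.C0
import Vale.Agent.P129R.L2
import Vale.Agent.P129R.Xi
import Vale.Agent.P129R.Dens

/-! Assembly. -/

namespace Vale.Agent.P129R

open Filter Topology MeasureTheory Vale.Agent.P129

variable {𝕜 X : Type*} [RCLike 𝕜] [NormedAddCommGroup X] [NormedSpace 𝕜 X]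

theorem sq_of_trunc [CompleteSpace X] (g : ℕ → X →L[𝕜] 𝕜) (hg : ∀ n, ‖g n‖ = 1) (ht : Trunc g) :
    SQ 𝕜 X := by
  by_cases hs : Shr g
  · exact sq_of_shr g hg ht hs
  obtain ⟨u, R, c, hc, hR, hL⟩ := l1_of_not_shr g ht hs
  rcases dich u R c hR hL with ⟨v, h1, h2, h3⟩ | ⟨v, δ, hδ, h1, h2⟩
  · exact sq_of_c0 v R c hc h1 h2 h3
  · obtain ⟨a, ha⟩ := exists_enum (𝕜 := 𝕜) (X := X)
    obtain ⟨ξ, h3, h4⟩ := xi_count v R δ hδ h1 h2 a
    exact sq_of_l2 ξ R (δ / 2) (by positivity) h3 (ha ξ _ h4)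

theorem sq_of_total [CompleteSpace X] {Ω : Type} [MeasurableSpace Ω] [hd : DiscreteMeasurableSpace Ω]
    (μ : Measure Ω) [IsProbabilityMeasure μ]
    (hat : ∀ m : ℕ, 0 < m → ∃ s : Ω → Fin m, ∀ i, μ {ω | s ω = i} ≤ (m : ENNReal)⁻¹)
    (hX : ¬ FiniteDimensional 𝕜 X) : SQ 𝕜 X := by
  by_contra hq
  obtain ⟨ψ, h1, h2⟩ := rand_family μ hat hX
  choose h hh1 hh2 using fun ω => exists_perp hq (ψ ω) (h1 ω)
  obtain ⟨w, hw⟩ := trunc_of_free h fun x => by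
    refine free_seq μ (fun q ω L => h ω (x q L) = 0) hd fun q ν hν => ?_
    letI : MeasurableSpace (List Ω) := ⊤
    haveI : DiscreteMeasurableSpace (List Ω) := ⟨fun _ => trivial⟩
    filter_upwards [h2 (List Ω) ν (x q)] with ω hω
    filter_upwards [hω] with L hL
    exact hh2 ω _ hL
  exact hq (sq_of_trunc _ (fun n => hh1 _) hw)

theorem sq_of_ext [CompleteSpace X] (μ : @Measure ℝ ⊤)
    (hμ : ∀ A : Set ℝ, MeasurableSet A → μ A = volume A) (hX : ¬ FiniteDimensional 𝕜 X) :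
    SQ 𝕜 X := by
  obtain ⟨ν, h1, h2⟩ := exists_unif μ hμ
  exact @sq_of_total 𝕜 X _ _ _ _ ℝ ⊤ (@DiscreteMeasurableSpace.mk ℝ ⊤ fun _ => trivial) ν h1 h2 hX

end Vale.Agent.P129R
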