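import Vale.Agent.P129R.Defs
import Vale.Agent.P129.DR

/-! Random sequences of functionals. -/

namespace Vale.Agent.P129R

open Filter Topology MeasureTheory Vale.Agent.P129

variable {𝕜 X : Type*} [RCLike 𝕜] [NormedAddCommGroup X] [NormedSpace 𝕜 X]

theorem rand_family2 {Ω : Type} [MeasurableSpace Ω] [DiscreteMeasurableSpace Ω] (μ : Measure Ω)
    [IsProbabilityMeasure μ]
    (hat : ∀ ε : ENNReal, 0 < ε →
      ∃ (ι : Type) (_ : Fintype ι) (s : Ω → ι), ∀ i, μ {ω | s ω = i} ≤ ε)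
    (hX : ¬ FiniteDimensional 𝕜 X) :
    ∃ ψ : Ω → ℕ → X →L[𝕜] 𝕜, (∀ ω n, 2 / 5 ≤ ‖ψ ω n‖) ∧
      ∀ (Γ : Type) [MeasurableSpace Γ] [DiscreteMeasurableSpace Γ] (ν : Measure Γ)
        [IsProbabilityMeasure ν] (x : Γ → X),
        ∀ᵐ ω ∂μ, ∀ᵐ γ ∂ν, ∀ᶠ n in atTop, ‖ψ ω n (x γ)‖ ≤ (1 / 4 : ℝ) ^ n := by
  classical
  choose ι hι s hs using fun n : ℕ => hat ((64 ^ n : ℕ) : ENNReal)⁻¹ (by simp)
  choose φ hφ1 hφ2 using fun n : ℕ => dr_dual hX (ι n)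
  refine ⟨fun ω n => φ n (s n ω), fun ω n => hφ1 n _, fun Γ _ _ ν _ x => ?_⟩
  have hfix : ∀ y : X, ∀ᵐ ω ∂μ, ∀ᶠ n in atTop, ‖φ n (s n ω) y‖ ≤ (1 / 4 : ℝ) ^ n := by
    intro y
    let S : (n : ℕ) → Finset (ι n) :=
      fun n => Finset.univ.filter fun i => (1 / 4 : ℝ) ^ n < ‖φ n i y‖
    have hcard : ∀ n, ((S n).card : ℝ) ≤ 16 ^ n * ‖y‖ ^ 2 := by
      intro n
      have h1 : ((S n).card : ℝ) * ((1 / 4 : ℝ) ^ n) ^ 2 ≤ ‖y‖ ^ 2 := by
        calc ((S n).card : ℝ) * ((1 / 4 : ℝ) ^ n) ^ 2 = ∑ _i ∈ S n, ((1 / 4 : ℝ) ^ n) ^ 2 := by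
              rw [Finset.sum_const, nsmul_eq_mul]
          _ ≤ ∑ i ∈ S n, ‖φ n i y‖ ^ 2 := Finset.sum_le_sum fun i hi =>
              pow_le_pow_left₀ (by positivity) (Finset.mem_filter.1 hi).2.le 2
          _ ≤ ∑ i, ‖φ n i y‖ ^ 2 :=
              Finset.sum_le_sum_of_subset_of_nonneg (Finset.subset_univ _) fun _ _ _ => by
                positivity
          _ ≤ _ := hφ2 n y
      have h2 : (16 : ℝ) ^ n * ((1 / 4 : ℝ) ^ n) ^ 2 = 1 := by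
        rw [← pow_mul, mul_comm n 2, pow_mul, ← mul_pow]
        norm_num
      have h3 : (0 : ℝ) < 16 ^ n := by positivity
      calc ((S n).card : ℝ) = 16 ^ n * (((S n).card : ℝ) * ((1 / 4 : ℝ) ^ n) ^ 2) := by
            rw [mul_left_comm, h2, mul_one]
        _ ≤ _ := mul_le_mul_of_nonneg_left h1 h3.le
    have hmeas : ∀ n, μ {ω | s n ω ∈ S n} ≤ ENNReal.ofReal (‖y‖ ^ 2 * (1 / 4) ^ n) := by
      intro n
      have h1 : {ω | s n ω ∈ S n} = ⋃ i ∈ S n, {ω | s n ω = i} := by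
        ext ω; simp
      rw [h1]
      refine (measure_biUnion_finset_le _ _).trans ?_
      refine (Finset.sum_le_sum fun i _ => hs n i).trans ?_
      rw [Finset.sum_const, nsmul_eq_mul]
      have h2 : (((64 ^ n : ℕ) : ENNReal))⁻¹ = ENNReal.ofReal ((64 : ℝ) ^ n)⁻¹ := by
        rw [ENNReal.ofReal_inv_of_pos (by positivity), ENNReal.ofReal_pow (by norm_num)]
        simp
      rw [h2, ← ENNReal.ofReal_natCast, ← ENNReal.ofReal_mul (by positivity)]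
      refine ENNReal.ofReal_le_ofReal ?_
      have h3 : (16 : ℝ) ^ n * ((64 : ℝ) ^ n)⁻¹ = (1 / 4) ^ n := by
        rw [← inv_pow, ← mul_pow]; norm_num
      calc ((S n).card : ℝ) * ((64 : ℝ) ^ n)⁻¹ ≤ 16 ^ n * ‖y‖ ^ 2 * ((64 : ℝ) ^ n)⁻¹ :=
            mul_le_mul_of_nonneg_right (hcard n) (by positivity)
        _ = _ := by rw [← h3]; ring
    have hsum : ∑' n, μ {ω | s n ω ∈ S n} ≠ ⊤ := by
      refine ne_top_of_le_ne_top ?_ (ENNReal.tsum_le_tsum hmeas)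
      rw [← ENNReal.ofReal_tsum_of_nonneg (fun n => by positivity)
        ((summable_geometric_of_lt_one (by norm_num) (by norm_num)).mul_left _)]
      exact ENNReal.ofReal_ne_top
    filter_upwards [ae_eventually_notMem hsum] with ω hω
    filter_upwards [hω] with n hn
    by_contra hc
    exact hn (Finset.mem_filter.2 ⟨Finset.mem_univ _, not_le.1 hc⟩)
  refine (Measure.ae_ae_comm (μ := μ) (ν := ν)
    (p := fun ω γ => ∀ᶠ n in atTop, ‖φ n (s n ω) (x γ)‖ ≤ (1 / 4 : ℝ) ^ n) ?_).2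
    (Eventually.of_forall fun γ => hfix (x γ))
  have h1 : {p : Ω × Γ | ∀ᶠ n in atTop, ‖φ n (s n p.1) (x p.2)‖ ≤ (1 / 4 : ℝ) ^ n} =
      ⋃ N : ℕ, ⋂ n : ℕ, ⋂ _ : N ≤ n, ⋃ i : ι n,
        {ω | s n ω = i} ×ˢ {γ | ‖φ n i (x γ)‖ ≤ (1 / 4 : ℝ) ^ n} := by
    ext p
    simp [eventually_atTop]
  rw [h1]
  exact MeasurableSet.iUnion fun N => MeasurableSet.iInter fun n => MeasurableSet.iInter fun _ =>
    MeasurableSet.iUnion fun i => MeasurableSet.of_discrete.prod MeasurableSet.of_discrete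

end Vale.Agent.P129R
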