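import Vale.Agent.P129R.Main
import Vale.Agent.P129R.Rand2
import Vale.Agent.P129R.Diffuse

/-! Assembly for diffuse total measures. -/

namespace Vale.Agent.P129R

open Filter Topology MeasureTheory Vale.Agent.P129

variable {𝕜 X : Type*} [RCLike 𝕜] [NormedAddCommGroup X] [NormedSpace 𝕜 X]

theorem sq_of_total2 [CompleteSpace X] {Ω : Type} [MeasurableSpace Ω]
    [hd : DiscreteMeasurableSpace Ω] (μ : Measure Ω) [IsProbabilityMeasure μ]
    (hat : ∀ ε : ENNReal, 0 < ε →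
      ∃ (ι : Type) (_ : Fintype ι) (s : Ω → ι), ∀ i, μ {ω | s ω = i} ≤ ε)
    (hX : ¬ FiniteDimensional 𝕜 X) : SQ 𝕜 X := by
  by_contra hq
  obtain ⟨ψ, h1, h2⟩ := rand_family2 μ hat hX
  choose h hh1 hh2 using fun ω => exists_perp hq (ψ ω) (h1 ω)
  obtain ⟨w, hw⟩ := trunc_of_free h fun x => by
    refine free_seq μ (fun q ω L => h ω (x q L) = 0) hd fun q ν hν => ?_
    let _ : MeasurableSpace (List Ω) := ⊤
    have _ : DiscreteMeasurableSpace (List Ω) := ⟨fun _ => trivial⟩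
    filter_upwards [h2 (List Ω) ν (x q)] with ω hω
    filter_upwards [hω] with L hL
    exact hh2 ω _ hL
  exact hq (sq_of_trunc _ (fun n => hh1 _) hw)

theorem sq_of_diffuse [CompleteSpace X] (μ : @Measure ℝ ⊤) (hμ : @IsProbabilityMeasure ℝ ⊤ μ)
    (h0 : ∀ x, μ {x} = 0) (hX : ¬ FiniteDimensional 𝕜 X) : SQ 𝕜 X :=
  @sq_of_total2 𝕜 X _ _ _ _ ℝ ⊤ (@DiscreteMeasurableSpace.mk ℝ ⊤ fun _ => trivial) μ hμ
    (small_cover μ hμ h0) hX

end Vale.Agent.P129R
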