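import Vale.Agent.P129R.Main
import Vale.Agent.P129R.Rand3
import Vale.Agent.P129R.DiffuseB

/-! Assembly under the free set principle. -/

namespace Vale.Agent.P129R

open Filter Topology MeasureTheory Vale.Agent.P129

variable {𝕜 X : Type*} [RCLike 𝕜] [NormedAddCommGroup X] [NormedSpace 𝕜 X]

theorem idx_sub (s : Finset ℕ) (m i : ℕ) (hi : i ∈ idx s m) : i ∈ s := by
  induction m with
  | zero => simp [idx] at hi
  | succ m ih =>
    unfold idx at hi
    split_ifs at hi with h
    · rcases List.mem_cons.1 hi with rfl | h2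
      · exact h
      · exact ih h2
    · exact ih hi

theorem sq_of_free [CompleteSpace X]
    (hF : ∀ N : Finset ℝ → Set ℝ, (∀ F, volume (N F) = 0) →
      ∃ Z : Set ℝ, Z.Infinite ∧ ∀ F : Finset ℝ, (F : Set ℝ) ⊆ Z → ∀ z ∈ Z, z ∉ F → z ∉ N F)
    (hX : ¬ FiniteDimensional 𝕜 X) : SQ 𝕜 X := by
  classical
  by_contra hq
  have hp : IsProbabilityMeasure (volume : Measure ℝ).toFinite := inferInstance
  obtain ⟨ψ, h1, h2⟩ := rand_family3 (volume : Measure ℝ).toFinite
    (small_coverB _ hp fun x => toFinite_absolutelyContinuous _ (measure_singleton x)) hX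
  choose h hh1 hh2 using fun ω => exists_perp hq (ψ ω) (h1 ω)
  have h3 : ∀ y : X, volume {ω | h ω y ≠ 0} = 0 := by
    intro y
    refine absolutelyContinuous_toFinite (volume : Measure ℝ) ?_
    have : ∀ᵐ ω ∂(volume : Measure ℝ).toFinite, h ω y = 0 := (h2 y).mono fun ω hω => hh2 ω y hω
    exact this
  obtain ⟨w, hw⟩ := trunc_of_free h fun x => by
    obtain ⟨Z, hZ, hfree⟩ := hF
      (fun F => ⋃ q, ⋃ L : List F, {ω | h ω (x q (L.map Subtype.val)) ≠ 0})
      (fun F => measure_iUnion_null fun q => measure_iUnion_null fun L => h3 _)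
    let w : ℕ → ℝ := fun n => (hZ.natEmbedding Z n : ℝ)
    have hwi : Function.Injective w := Subtype.val_injective.comp (hZ.natEmbedding Z).injective
    have hwZ : ∀ n, w n ∈ Z := fun n => (hZ.natEmbedding Z n).2
    refine ⟨w, fun q s m j hj => ?_⟩
    have h4 := hfree (s.image w) (by
      intro z hz
      obtain ⟨i, -, rfl⟩ := Finset.mem_image.1 (Finset.mem_coe.1 hz)
      exact hwZ i) (w j) (hwZ j) (by
      intro hz
      obtain ⟨i, hi, hij⟩ := Finset.mem_image.1 hz
      exact hj (hwi hij ▸ hi))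
    have h5 : ∀ a ∈ (idx s m).map w, a ∈ s.image w := by
      intro a ha
      obtain ⟨i, hi, rfl⟩ := List.mem_map.1 ha
      exact Finset.mem_image_of_mem _ (idx_sub s m i hi)
    by_contra hne
    refine h4 (Set.mem_iUnion₂.2 ⟨q, ((idx s m).map w).attachWith _ h5, ?_⟩)
    have h6 : (((idx s m).map w).attachWith _ h5).map Subtype.val = (idx s m).map w :=
      List.attachWith_map_subtype_val h5
    show h (w j) (x q ((((idx s m).map w).attachWith _ h5).map Subtype.val)) ≠ 0
    rw [h6]
    exact hne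
  exact hq (sq_of_trunc _ (fun n => hh1 _) hw)

end Vale.Agent.P129R
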