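import Vale.Agent.P129R.Approx

/-! Surjectivity from the adjoint. -/

namespace Vale.Agent.P129R

open Filter Topology MeasureTheory Vale.Agent.P129

variable {𝕜 X : Type*} [RCLike 𝕜] [NormedAddCommGroup X] [NormedSpace 𝕜 X]

theorem surj_of_dual [CompleteSpace X] {Y : Type*} [NormedAddCommGroup Y] [NormedSpace 𝕜 Y]
    (T : X →L[𝕜] Y) (c : ℝ) (hc : 0 < c) (h : ∀ F : Y →L[𝕜] 𝕜, c * ‖F‖ ≤ ‖F.comp T‖) (b : Y) :
    ∃ x : X, T x = b ∧ ‖x‖ ≤ 2 / c * ‖b‖ := by
  have step : ∀ y : Y, ∃ x : X, ‖x‖ ≤ ‖y‖ / c ∧ ‖y - T x‖ ≤ 1 / 2 * ‖y‖ := by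
    intro y
    by_cases hy : y = 0
    · exact ⟨0, by simp [hy], by simp [hy]⟩
    have hy0 : 0 < ‖y‖ := norm_pos_iff.2 hy
    have h1 := mem_closure_image_ball T y (‖y‖ / c) (by positivity) fun F => by
      refine (F.le_opNorm y).trans ?_
      rw [div_mul_eq_mul_div, le_div_iff₀ hc]
      nlinarith [h F]
    obtain ⟨_, ⟨x, hx, rfl⟩, hd⟩ := Metric.mem_closure_iff.1 h1 (1 / 2 * ‖y‖) (by positivity)
    exact ⟨x, mem_closedBall_zero_iff.1 hx, by rw [← dist_eq_norm]; exact hd.le⟩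
  choose g hg1 hg2 using step
  obtain ⟨r, hr0, hrs⟩ : ∃ r : ℕ → Y, r 0 = b ∧ ∀ n, r (n + 1) = r n - T (g (r n)) :=
    ⟨fun n => (fun y => y - T (g y))^[n] b, rfl, fun n => Function.iterate_succ_apply' _ _ _⟩
  have hr : ∀ n, ‖r n‖ ≤ (1 / 2) ^ n * ‖b‖ := by
    intro n
    induction n with
    | zero => simp [hr0]
    | succ n ih =>
      rw [hrs, pow_succ]
      linarith [hg2 (r n)]
  have hu : ∀ n, ‖g (r n)‖ ≤ (1 / 2) ^ n * (‖b‖ / c) := fun n => by
    refine (hg1 _).trans ?_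
    rw [← mul_div_assoc]
    exact div_le_div_of_nonneg_right (hr n) hc.le
  have hgeo : HasSum (fun n : ℕ => (1 / 2 : ℝ) ^ n * (‖b‖ / c)) (2 * (‖b‖ / c)) :=
    hasSum_geometric_two.mul_right _
  have hs : Summable fun n => g (r n) := Summable.of_norm_bounded hgeo.summable hu
  refine ⟨∑' n, g (r n), ?_, ?_⟩
  · have h1 : Tendsto (fun n => T (∑ i ∈ Finset.range n, g (r i))) atTop
        (𝓝 (T (∑' n, g (r n)))) := (T.continuous.tendsto _).comp hs.hasSum.tendsto_sum_nat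
    have h2 : ∀ n, T (∑ i ∈ Finset.range n, g (r i)) = b - r n := by
      intro n
      induction n with
      | zero => simp [hr0]
      | succ n ih =>
        rw [Finset.sum_range_succ, map_add, ih, hrs]
        abel
    have h3 : Tendsto r atTop (𝓝 0) := by
      refine squeeze_zero_norm hr ?_
      simpa using (tendsto_pow_atTop_nhds_zero_of_lt_one (r := (1 / 2 : ℝ)) (by norm_num)
        (by norm_num)).mul_const ‖b‖
    simp only [h2] at h1
    exact tendsto_nhds_unique h1 (by simpa using h3.const_sub b)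
  · refine (tsum_of_norm_bounded hgeo hu).trans (le_of_eq ?_)
    ring

end Vale.Agent.P129R
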