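import Vale.Agent.P129R.Defs

/-! The tree for good sequences. -/

namespace Vale.Agent.P129R

open Filter Topology MeasureTheory Vale.Agent.P129

variable {𝕜 X : Type*} [RCLike 𝕜] [NormedAddCommGroup X] [NormedSpace 𝕜 X]

theorem pick_inj {ι : Type} (e : ι → ℕ → ℕ) (he : ∀ t, Tendsto (e t) atTop atTop) (j : ℕ)
    (S : Finset ι) : ∃ s : ι → ℕ, (∀ t, j ≤ s t ∧ j ≤ e t (s t)) ∧
      ∀ t ∈ S, ∀ t' ∈ S, e t (s t) = e t' (s t') → t = t' := by
  classical
  have key : ∀ t (N : ℕ), ∃ k, j ≤ k ∧ j ≤ e t k ∧ N < e t k := by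
    intro t N
    exact ((eventually_ge_atTop j).and (((he t).eventually (eventually_ge_atTop j)).and
      ((he t).eventually (eventually_gt_atTop N)))).exists
  induction S using Finset.induction_on with
  | empty =>
    choose s hs using fun t => key t 0
    exact ⟨s, fun t => ⟨(hs t).1, (hs t).2.1⟩, by simp⟩
  | insert a S ha ih =>
    obtain ⟨s, hs, hinj⟩ := ih
    obtain ⟨k, hk1, hk2, hk3⟩ := key a (S.sup fun t => e t (s t))
    have hup : ∀ t ∈ S, Function.update s a k t = s t := fun t ht =>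
      Function.update_of_ne (fun h : t = a => ha (h ▸ ht)) _ _
    have hlt : ∀ t ∈ S, e t (s t) < e a k := fun t ht =>
      lt_of_le_of_lt (Finset.le_sup (f := fun t => e t (s t)) ht) hk3
    refine ⟨Function.update s a k, fun t => ?_, fun t ht t' ht' h => ?_⟩
    · by_cases h : t = a
      · subst h
        rw [Function.update_self]
        exact ⟨hk1, hk2⟩
      · rw [Function.update_of_ne h]
        exact hs t
    · rcases Finset.mem_insert.1 ht with rfl | ht1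
      · rcases Finset.mem_insert.1 ht' with rfl | ht2
        · rfl
        · rw [Function.update_self, hup _ ht2] at h
          exact absurd h (hlt _ ht2).ne'
      · rcases Finset.mem_insert.1 ht' with rfl | ht2
        · rw [Function.update_self, hup _ ht1] at h
          exact absurd h (hlt _ ht1).ne
        · rw [hup _ ht1, hup _ ht2] at h
          exact hinj _ ht1 _ ht2 h

theorem step2 (v : ℕ → X →L[𝕜] 𝕜) (R δ : ℝ) (hR : ∀ k, ‖v k‖ ≤ R) (hG : Good v δ)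
    (ι : Type) [Fintype ι] (e : ι → ℕ → ℕ) (he : ∀ t, Tendsto (e t) atTop atTop) (g : ι → 𝕜) :
    ∃ (x : X) (s : ι → ℕ → ℕ) (α : ι → 𝕜), ‖x‖ ≤ 1 ∧ (∀ t, Tendsto (s t) atTop atTop) ∧
      (∀ t, Tendsto (fun j => v (e t (s t j)) x) atTop (𝓝 (α t))) ∧
      δ * ∑ t, ‖g t‖ ≤ ‖∑ t, g t * α t‖ := by
  classical
  choose s hs hinj using fun j => pick_inj e he j Finset.univ
  obtain ⟨x, hx, hfr⟩ := hG ι g (fun j t => e t (s j t))
    (fun j t t' h => hinj j t (Finset.mem_univ _) t' (Finset.mem_univ _) h)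
    (fun j t => (hs j t).2)
  let w : ℕ → ι → 𝕜 := fun j t => v (e t (s j t)) x
  have hR0 : 0 ≤ R := (norm_nonneg _).trans (hR 0)
  let A : Set (ι → 𝕜) := {u | δ * ∑ t, ‖g t‖ ≤ ‖∑ t, g t * u t‖}
  have hA : IsClosed A := isClosed_le continuous_const (by fun_prop)
  have hK : IsCompact (Metric.closedBall (0 : ι → 𝕜) R ∩ A) :=
    (isCompact_closedBall 0 R).inter_right hA
  have hv : ∃ᶠ j in atTop, w j ∈ Metric.closedBall (0 : ι → 𝕜) R ∩ A := by
    refine hfr.mono fun j hj => ⟨?_, hj⟩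
    rw [mem_closedBall_zero_iff, pi_norm_le_iff_of_nonneg hR0]
    intro p
    refine ((v _).le_opNorm x).trans ?_
    exact (mul_le_mul (hR _) hx (norm_nonneg _) hR0).trans (mul_one R).le
  obtain ⟨α, hα, φ, hφ, hlim⟩ := hK.tendsto_subseq' hv
  refine ⟨x, fun t j => s (φ j) t, α, hx, fun t => ?_, fun t => ?_, hα.2⟩
  · exact tendsto_atTop_mono (fun j => (hφ.le_apply).trans (hs _ t).1) tendsto_id
  · exact tendsto_pi_nhds.1 hlim t

theorem dbl (δ : ℝ) (c : ℕ → 𝕜) (m n : ℕ) (h : n ≤ m) (val : Node m → 𝕜)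
    (hs : δ * ∑ t : Node m, ‖∑ i ∈ Finset.range n, c i * rad 𝕜 m i t‖ ≤
      ‖∑ t : Node m, (∑ i ∈ Finset.range n, c i * rad 𝕜 m i t) * val t‖) :
    δ * ∑ p : Node (m + 1), ‖∑ i ∈ Finset.range n, c i * rad 𝕜 (m + 1) i p‖ ≤
      ‖∑ p : Node (m + 1), (∑ i ∈ Finset.range n, c i * rad 𝕜 (m + 1) i p) *
        val (p : Node m × Bool).1‖ := by
  have e1 : ∀ (t : Node m) (b : Bool), ∑ i ∈ Finset.range n, c i * rad 𝕜 (m + 1) i (t, b) =
      ∑ i ∈ Finset.range n, c i * rad 𝕜 m i t := by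
    intro t b
    refine Finset.sum_congr rfl fun i hi => ?_
    have hi' : i ≠ m := (lt_of_lt_of_le (Finset.mem_range.1 hi) h).ne
    have : rad 𝕜 (m + 1) i (t, b) = rad 𝕜 m i t := if_neg hi'
    rw [this]
  have e2 : ∑ p : Node (m + 1), ‖∑ i ∈ Finset.range n, c i * rad 𝕜 (m + 1) i p‖ =
      2 * ∑ t : Node m, ‖∑ i ∈ Finset.range n, c i * rad 𝕜 m i t‖ := by
    rw [sum_node_succ, Finset.mul_sum]
    exact Finset.sum_congr rfl fun t _ => by rw [e1, e1, two_mul]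
  have e3 : ∑ p : Node (m + 1), (∑ i ∈ Finset.range n, c i * rad 𝕜 (m + 1) i p) *
        val (p : Node m × Bool).1 =
      2 * ∑ t : Node m, (∑ i ∈ Finset.range n, c i * rad 𝕜 m i t) * val t := by
    rw [sum_node_succ, Finset.mul_sum]
    exact Finset.sum_congr rfl fun t _ => by rw [e1, e1, two_mul]
  rw [e2, e3, norm_mul, RCLike.norm_two]
  linarith

theorem tree2 (v : ℕ → X →L[𝕜] 𝕜) (R δ : ℝ) (hR : ∀ k, ‖v k‖ ≤ R) (hG : Good v δ)
    (a : ℕ → ℕ → 𝕜) :
    ∃ (e : (m : ℕ) → Node m → ℕ → ℕ) (x : ℕ → X), (∀ n, ‖x n‖ ≤ 1) ∧ ∀ m n, n < m →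
      ∃ val : Node m → 𝕜, (∀ t, Tendsto (fun j => v (e m t j) (x n)) atTop (𝓝 (val t))) ∧
        δ * ∑ t : Node m, ‖∑ i ∈ Finset.range n, a n i * rad 𝕜 m i t‖ ≤
          ‖∑ t : Node m, (∑ i ∈ Finset.range n, a n i * rad 𝕜 m i t) * val t‖ := by
  have hst := fun (m : ℕ) (e : {e : Node m → ℕ → ℕ // ∀ t, Tendsto (e t) atTop atTop}) =>
    step2 v R δ hR hG (Node m) e.1 e.2 (fun t => ∑ i ∈ Finset.range m, a m i * rad 𝕜 m i t)
  choose x s α h1 h2 h3 h4 using hst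
  let E : (m : ℕ) → {e : Node m → ℕ → ℕ // ∀ t, Tendsto (e t) atTop atTop} := fun m =>
    Nat.rec (motive := fun m => {e : Node m → ℕ → ℕ // ∀ t, Tendsto (e t) atTop atTop})
      ⟨fun _ j => j, fun _ => tendsto_id⟩
      (fun m e => ⟨fun p j => e.1 p.1 (s m e p.1 j), fun p => (e.2 p.1).comp (h2 m e p.1)⟩) m
  refine ⟨fun m => (E m).1, fun n => x n (E n), fun n => h1 n (E n), fun m => ?_⟩
  induction m with
  | zero => exact fun n hn => absurd hn (Nat.not_lt_zero n)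
  | succ m ih =>
    intro n hn
    rcases (Nat.lt_succ_iff.1 hn).lt_or_eq with h | h
    · obtain ⟨val, hv, hs⟩ := ih n h
      exact ⟨fun p => val p.1, fun p => (hv p.1).comp (h2 m (E m) p.1),
        dbl δ (a n) m n h.le val hs⟩
    · subst h
      exact ⟨fun p => α n (E n) p.1, fun p => h3 n (E n) p.1,
        dbl δ (a n) n n le_rfl (α n (E n)) (h4 n (E n))⟩

end Vale.Agent.P129R
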