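import Vale.Agent.P129R.Defs

/-! A total probability with uniform finite random variables. -/

namespace Vale.Agent.P129R

open Filter Topology MeasureTheory Vale.Agent.P129

variable {𝕜 X : Type*} [RCLike 𝕜] [NormedAddCommGroup X] [NormedSpace 𝕜 X]

theorem exists_unif (μ : @Measure ℝ ⊤) (hμ : ∀ A : Set ℝ, MeasurableSet A → μ A = volume A) :
    ∃ ν : @Measure ℝ ⊤, @IsProbabilityMeasure ℝ ⊤ ν ∧ ∀ m : ℕ, 0 < m →
      ∃ s : ℝ → Fin m, ∀ i, ν {ω | s ω = i} ≤ (m : ENNReal)⁻¹ := by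
  have happ : ∀ A : Set ℝ, (@Measure.restrict ℝ ⊤ μ (Set.Ico 0 1)) A = μ (A ∩ Set.Ico 0 1) :=
    fun A => @Measure.restrict_apply ℝ ⊤ μ _ _ (@MeasurableSpace.measurableSet_top ℝ A)
  refine ⟨@Measure.restrict ℝ ⊤ μ (Set.Ico 0 1), ?_, ?_⟩
  · refine @IsProbabilityMeasure.mk ℝ ⊤ _ ?_
    rw [happ, Set.univ_inter, hμ _ measurableSet_Ico]
    simp
  · intro m hm
    have hm' : (0 : ℝ) < m := by exact_mod_cast hm
    refine ⟨fun w => ⟨min ⌊(m : ℝ) * w⌋₊ (m - 1), by omega⟩, fun i => ?_⟩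
    rw [happ]
    have hsub : {ω : ℝ | (⟨min ⌊(m : ℝ) * ω⌋₊ (m - 1), by omega⟩ : Fin m) = i} ∩ Set.Ico 0 1 ⊆
        Set.Ico ((i : ℝ) / m) (((i : ℝ) + 1) / m) := by
      rintro w ⟨hw, hw0, hw1⟩
      have hw' : min ⌊(m : ℝ) * w⌋₊ (m - 1) = (i : ℕ) := congrArg Fin.val hw
      have h0 : 0 ≤ (m : ℝ) * w := mul_nonneg hm'.le hw0
      have h1 : ⌊(m : ℝ) * w⌋₊ < m := by
        rw [Nat.floor_lt h0]; nlinarith
      have h2 : ⌊(m : ℝ) * w⌋₊ = (i : ℕ) := by omega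
      have h3 := Nat.floor_le h0
      have h4 := Nat.lt_floor_add_one ((m : ℝ) * w)
      rw [h2] at h3 h4
      constructor
      · rw [div_le_iff₀ hm']; linarith
      · rw [lt_div_iff₀ hm']; linarith
    refine le_trans (@measure_mono ℝ (@Measure ℝ ⊤) _ _ μ _ _ hsub) ?_
    rw [hμ _ measurableSet_Ico, Real.volume_Ico]
    have e : ((i : ℝ) + 1) / m - (i : ℝ) / m = (m : ℝ)⁻¹ := by field_simp; ring
    rw [e, ENNReal.ofReal_inv_of_pos hm', ENNReal.ofReal_natCast]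

end Vale.Agent.P129R
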